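import Mathlib

namespace Vale.Agent.P121

open MeasureTheory Set
open scoped ENNReal

variable {α : Type*} [MeasurableSpace α]

/-- the marginal built from a base measure and four maps -/
noncomputable def muOf (ν : Measure α) (f : Fin 4 → α → α) : Measure α :=
  ν + ν + (ν.map (f 0) + ν.map (f 1)) + (ν.map (f 2) + ν.map (f 3))

theorem muOf_apply (ν : Measure α) {f : Fin 4 → α → α} (hf : ∀ k, Measurable (f k)) {s : Set α}
    (hs : MeasurableSet s) : muOf ν f s = ν s + ν s + (ν (f 0 ⁻¹' s) + ν (f 1 ⁻¹' s))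
      + (ν (f 2 ⁻¹' s) + ν (f 3 ⁻¹' s)) := by
  simp only [muOf, Measure.add_apply, Measure.map_apply (hf _) hs]

theorem lintegral_muOf (ν : Measure α) {f : Fin 4 → α → α} (hf : ∀ k, Measurable (f k))
    {U : α → ℝ≥0∞} (hU : Measurable U) :
    ∫⁻ x, U x ∂(muOf ν f) = ∫⁻ x, U x ∂ν + ∫⁻ x, U x ∂ν + (∫⁻ x, U (f 0 x) ∂ν + ∫⁻ x, U (f 1 x) ∂ν)
      + (∫⁻ x, U (f 2 x) ∂ν + ∫⁻ x, U (f 3 x) ∂ν) := by
  simp only [muOf, lintegral_add_measure, lintegral_map hU (hf _)]

/-- cyclic symmetrisation of the graph plan -/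
noncomputable def cyc (ν : Measure α) (f g : α → α) : Measure (α × α × α) :=
  ν.map (fun x => (x, f x, g x)) + ν.map (fun x => (f x, g x, x)) + ν.map (fun x => (g x, x, f x))

theorem cyc_map1 (ν : Measure α) {f g : α → α} (hf : Measurable f) (hg : Measurable g) :
    (cyc ν f g).map (fun p => p.1) = ν + ν.map f + ν.map g := by
  have h1 : Measurable (fun x => (x, f x, g x)) := by fun_prop
  have h2 : Measurable (fun x => (f x, g x, x)) := by fun_prop
  have h3 : Measurable (fun x => (g x, x, f x)) := by fun_prop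
  have hp : Measurable (fun p : α × α × α => p.1) := measurable_fst
  rw [cyc, Measure.map_add _ _ hp, Measure.map_add _ _ hp, Measure.map_map hp h1,
    Measure.map_map hp h2, Measure.map_map hp h3]
  congr 1
  congr 1
  exact Measure.map_id

theorem cyc_map2 (ν : Measure α) {f g : α → α} (hf : Measurable f) (hg : Measurable g) :
    (cyc ν f g).map (fun p => p.2.1) = ν + ν.map f + ν.map g := by
  have h1 : Measurable (fun x => (x, f x, g x)) := by fun_prop
  have h2 : Measurable (fun x => (f x, g x, x)) := by fun_prop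
  have h3 : Measurable (fun x => (g x, x, f x)) := by fun_prop
  have hp : Measurable (fun p : α × α × α => p.2.1) := by fun_prop
  rw [cyc, Measure.map_add _ _ hp, Measure.map_add _ _ hp, Measure.map_map hp h1,
    Measure.map_map hp h2, Measure.map_map hp h3]
  have e1 : ((fun p : α × α × α => p.2.1) ∘ fun x => (g x, x, f x)) = id := rfl
  rw [e1, Measure.map_id]
  have e2 : ((fun p : α × α × α => p.2.1) ∘ fun x => (x, f x, g x)) = f := rfl
  have e3 : ((fun p : α × α × α => p.2.1) ∘ fun x => (f x, g x, x)) = g := rfl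
  rw [e2, e3]
  abel

theorem cyc_map3 (ν : Measure α) {f g : α → α} (hf : Measurable f) (hg : Measurable g) :
    (cyc ν f g).map (fun p => p.2.2) = ν + ν.map f + ν.map g := by
  have h1 : Measurable (fun x => (x, f x, g x)) := by fun_prop
  have h2 : Measurable (fun x => (f x, g x, x)) := by fun_prop
  have h3 : Measurable (fun x => (g x, x, f x)) := by fun_prop
  have hp : Measurable (fun p : α × α × α => p.2.2) := by fun_prop
  rw [cyc, Measure.map_add _ _ hp, Measure.map_add _ _ hp, Measure.map_map hp h1,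
    Measure.map_map hp h2, Measure.map_map hp h3]
  have e1 : ((fun p : α × α × α => p.2.2) ∘ fun x => (g x, x, f x)) = f := rfl
  have e2 : ((fun p : α × α × α => p.2.2) ∘ fun x => (x, f x, g x)) = g := rfl
  have e3 : ((fun p : α × α × α => p.2.2) ∘ fun x => (f x, g x, x)) = id := rfl
  rw [e1, e2, e3, Measure.map_id]
  abel

theorem cyc_lintegral (ν : Measure α) {f g : α → α} (hf : Measurable f) (hg : Measurable g)
    {c : α × α × α → ℝ≥0∞} (hc : Measurable c) :
    ∫⁻ p, c p ∂(cyc ν f g) = ∫⁻ x, c (x, f x, g x) ∂ν + ∫⁻ x, c (f x, g x, x) ∂ν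
      + ∫⁻ x, c (g x, x, f x) ∂ν := by
  have h1 : Measurable (fun x => (x, f x, g x)) := by fun_prop
  have h2 : Measurable (fun x => (f x, g x, x)) := by fun_prop
  have h3 : Measurable (fun x => (g x, x, f x)) := by fun_prop
  rw [cyc, lintegral_add_measure, lintegral_add_measure, lintegral_map hc h1, lintegral_map hc h2,
    lintegral_map hc h3]

/-- abstract duality certificate excluding optimal Monge plans -/
theorem abstract_no_monge [StandardBorelSpace α]
    (c : α × α × α → ℝ≥0∞) (hc : Measurable c)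
    (U : α → ℝ≥0∞) (hU : Measurable U) (B : ℝ≥0∞) (hB : B ≠ ∞) (hUB : ∀ x, U x ≤ B)
    (A S : Set α) (hA : MeasurableSet A) (hS : MeasurableSet S) (hAS : A ⊆ S)
    (f : Fin 4 → α → α) (hf : ∀ k, Measurable (f k)) (hfS : ∀ k, ∀ x ∈ A, f k x ∈ S)
    (hinj : ∀ k, InjOn (f k) A)
    (hdis : ∀ k l, k ≠ l → ∀ x ∈ A, ∀ x' ∈ A, f k x ≠ f l x')
    (hdisA : ∀ k, ∀ x ∈ A, f k x ∉ A)
    (ν : Measure α) (hν : 6 * ν univ = 1) (hνA : ν Aᶜ = 0)
    (H1 : ∀ x ∈ S, ∀ y ∈ S, ∀ z ∈ S, U x + U y + U z ≤ c (x, y, z))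
    (H2 : ∀ x ∈ A, c (x, f 0 x, f 1 x) = U x + U (f 0 x) + U (f 1 x) ∧
      c (f 0 x, f 1 x, x) = U x + U (f 0 x) + U (f 1 x) ∧
      c (f 1 x, x, f 0 x) = U x + U (f 0 x) + U (f 1 x))
    (H2' : ∀ x ∈ A, c (x, f 2 x, f 3 x) = U x + U (f 2 x) + U (f 3 x) ∧
      c (f 2 x, f 3 x, x) = U x + U (f 2 x) + U (f 3 x) ∧
      c (f 3 x, x, f 2 x) = U x + U (f 2 x) + U (f 3 x))
    (H3 : ∀ x ∈ A, ∀ y ∈ S, ∀ z ∈ S, c (x, y, z) = U x + U y + U z → ∃ k, y = f k x) :
    IsProbabilityMeasure (muOf ν f) ∧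
    (⨅ π ∈ {π : Measure (α × α × α) | IsProbabilityMeasure π ∧ π.map (fun p => p.1) = muOf ν f ∧
      π.map (fun p => p.2.1) = muOf ν f ∧ π.map (fun p => p.2.2) = muOf ν f}, ∫⁻ p, c p ∂π) < ∞ ∧
    ∀ M₂ M₃ : α → α, Measurable M₂ → Measurable M₃ → (muOf ν f).map M₂ = muOf ν f →
      (muOf ν f).map M₃ = muOf ν f → ∫⁻ x, c (x, M₂ x, M₃ x) ∂(muOf ν f) ≠
    (⨅ π ∈ {π : Measure (α × α × α) | IsProbabilityMeasure π ∧ π.map (fun p => p.1) = muOf ν f ∧
      π.map (fun p => p.2.1) = muOf ν f ∧ π.map (fun p => p.2.2) = muOf ν f}, ∫⁻ p, c p ∂π) := by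
  set μ := muOf ν f with hμ
  have hνae : ∀ᵐ x ∂ν, x ∈ A := by
    rw [ae_iff]; exact hνA
  have hνfin : ν univ ≠ ∞ := by
    intro h
    rw [h] at hν
    simp at hν
  have hprob : IsProbabilityMeasure μ := by
    constructor
    rw [hμ, muOf_apply ν hf MeasurableSet.univ]
    simp only [preimage_univ]
    rw [← hν]
    ring
  -- support
  have hμS : μ Sᶜ = 0 := by
    have h0 : ν Sᶜ = 0 := measure_mono_null (compl_subset_compl.2 hAS) hνA
    have h1 : ∀ k, ν (f k ⁻¹' Sᶜ) = 0 := by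
      intro k
      refine measure_mono_null ?_ hνA
      intro x hx hxA
      exact hx (hfS k x hxA)
    rw [hμ, muOf_apply ν hf hS.compl, h0, h1, h1, h1, h1]
    simp
  have hμSae : ∀ᵐ x ∂μ, x ∈ S := by
    rw [ae_iff]; exact hμS
  -- the dual value
  set D : ℝ≥0∞ := ∫⁻ x, U x ∂μ with hD
  have hDfin : D ≠ ∞ := by
    have : D ≤ B := by
      calc D ≤ ∫⁻ x, B ∂μ := lintegral_mono hUB
        _ = B := by rw [lintegral_const, measure_univ, mul_one]
    exact ne_top_of_le_ne_top hB this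
  -- lower bound
  have hlow : ∀ π : Measure (α × α × α), π.map (fun p => p.1) = μ → π.map (fun p => p.2.1) = μ →
      π.map (fun p => p.2.2) = μ → D + D + D ≤ ∫⁻ p, c p ∂π := by
    intro π h1 h2 h3
    have m1 : Measurable (fun p : α × α × α => p.1) := by fun_prop
    have m2 : Measurable (fun p : α × α × α => p.2.1) := by fun_prop
    have m3 : Measurable (fun p : α × α × α => p.2.2) := by fun_prop
    have e1 : ∫⁻ p, U p.1 ∂π = D := by
      rw [hD, ← h1, lintegral_map hU m1]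
    have e2 : ∫⁻ p, U p.2.1 ∂π = D := by
      rw [hD, ← h2, lintegral_map hU m2]
    have e3 : ∫⁻ p, U p.2.2 ∂π = D := by
      rw [hD, ← h3, lintegral_map hU m3]
    have a1 : ∀ᵐ p ∂π, p.1 ∈ S := by
      have : ∀ᵐ x ∂(π.map (fun p => p.1)), x ∈ S := by rw [h1]; exact hμSae
      exact ae_of_ae_map m1.aemeasurable this
    have a2 : ∀ᵐ p ∂π, p.2.1 ∈ S := by
      have : ∀ᵐ x ∂(π.map (fun p => p.2.1)), x ∈ S := by rw [h2]; exact hμSae
      exact ae_of_ae_map m2.aemeasurable this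
    have a3 : ∀ᵐ p ∂π, p.2.2 ∈ S := by
      have : ∀ᵐ x ∂(π.map (fun p => p.2.2)), x ∈ S := by rw [h3]; exact hμSae
      exact ae_of_ae_map m3.aemeasurable this
    calc D + D + D = ∫⁻ p, (U p.1 + U p.2.1 + U p.2.2) ∂π := by
          rw [lintegral_add_left (by fun_prop), lintegral_add_left (by fun_prop), e1, e2, e3]
      _ ≤ ∫⁻ p, c p ∂π := by
          apply lintegral_mono_ae
          filter_upwards [a1, a2, a3] with p q1 q2 q3
          exact H1 _ q1 _ q2 _ q3
  -- the optimal plan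
  let π₀ : Measure (α × α × α) := cyc ν (f 0) (f 1) + cyc ν (f 2) (f 3)
  have p1 : Measurable (fun p : α × α × α => p.1) := by fun_prop
  have p2 : Measurable (fun p : α × α × α => p.2.1) := by fun_prop
  have p3 : Measurable (fun p : α × α × α => p.2.2) := by fun_prop
  have hsum : (ν + ν.map (f 0) + ν.map (f 1)) + (ν + ν.map (f 2) + ν.map (f 3)) = μ := by
    rw [hμ, muOf]; abel
  have q1 : π₀.map (fun p => p.1) = μ := by
    rw [Measure.map_add _ _ p1, cyc_map1 ν (hf 0) (hf 1), cyc_map1 ν (hf 2) (hf 3), hsum]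
  have q2 : π₀.map (fun p => p.2.1) = μ := by
    rw [Measure.map_add _ _ p2, cyc_map2 ν (hf 0) (hf 1), cyc_map2 ν (hf 2) (hf 3), hsum]
  have q3 : π₀.map (fun p => p.2.2) = μ := by
    rw [Measure.map_add _ _ p3, cyc_map3 ν (hf 0) (hf 1), cyc_map3 ν (hf 2) (hf 3), hsum]
  have q0 : IsProbabilityMeasure π₀ := by
    constructor
    have : (π₀.map (fun p => p.1)) univ = 1 := by rw [q1]; exact measure_univ
    rwa [Measure.map_apply p1 MeasurableSet.univ, preimage_univ] at this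
  have hcost : ∫⁻ p, c p ∂π₀ = D + D + D := by
    have t1 : ∫⁻ x, c (x, f 0 x, f 1 x) ∂ν = ∫⁻ x, U x ∂ν + ∫⁻ x, U (f 0 x) ∂ν
        + ∫⁻ x, U (f 1 x) ∂ν := by
      have := hf 0
      have := hf 1
      rw [← lintegral_add_left (by fun_prop), ← lintegral_add_left (by fun_prop)]
      apply lintegral_congr_ae
      filter_upwards [hνae] with x hx using (H2 x hx).1
    have t2 : ∫⁻ x, c (f 0 x, f 1 x, x) ∂ν = ∫⁻ x, U x ∂ν + ∫⁻ x, U (f 0 x) ∂ν
        + ∫⁻ x, U (f 1 x) ∂ν := by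
      have := hf 0
      have := hf 1
      rw [← lintegral_add_left (by fun_prop), ← lintegral_add_left (by fun_prop)]
      apply lintegral_congr_ae
      filter_upwards [hνae] with x hx using (H2 x hx).2.1
    have t3 : ∫⁻ x, c (f 1 x, x, f 0 x) ∂ν = ∫⁻ x, U x ∂ν + ∫⁻ x, U (f 0 x) ∂ν
        + ∫⁻ x, U (f 1 x) ∂ν := by
      have := hf 0
      have := hf 1
      rw [← lintegral_add_left (by fun_prop), ← lintegral_add_left (by fun_prop)]
      apply lintegral_congr_ae
      filter_upwards [hνae] with x hx using (H2 x hx).2.2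
    have s1 : ∫⁻ x, c (x, f 2 x, f 3 x) ∂ν = ∫⁻ x, U x ∂ν + ∫⁻ x, U (f 2 x) ∂ν
        + ∫⁻ x, U (f 3 x) ∂ν := by
      have := hf 2
      have := hf 3
      rw [← lintegral_add_left (by fun_prop), ← lintegral_add_left (by fun_prop)]
      apply lintegral_congr_ae
      filter_upwards [hνae] with x hx using (H2' x hx).1
    have s2 : ∫⁻ x, c (f 2 x, f 3 x, x) ∂ν = ∫⁻ x, U x ∂ν + ∫⁻ x, U (f 2 x) ∂ν
        + ∫⁻ x, U (f 3 x) ∂ν := by
      have := hf 2
      have := hf 3
      rw [← lintegral_add_left (by fun_prop), ← lintegral_add_left (by fun_prop)]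
      apply lintegral_congr_ae
      filter_upwards [hνae] with x hx using (H2' x hx).2.1
    have s3 : ∫⁻ x, c (f 3 x, x, f 2 x) ∂ν = ∫⁻ x, U x ∂ν + ∫⁻ x, U (f 2 x) ∂ν
        + ∫⁻ x, U (f 3 x) ∂ν := by
      have := hf 2
      have := hf 3
      rw [← lintegral_add_left (by fun_prop), ← lintegral_add_left (by fun_prop)]
      apply lintegral_congr_ae
      filter_upwards [hνae] with x hx using (H2' x hx).2.2
    rw [lintegral_add_measure, cyc_lintegral ν (hf 0) (hf 1) hc, cyc_lintegral ν (hf 2) (hf 3) hc,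
      t1, t2, t3, s1, s2, s3, hD, hμ, lintegral_muOf ν hf hU]
    ring
  have hval : (⨅ π ∈ {π : Measure (α × α × α) | IsProbabilityMeasure π ∧ π.map (fun p => p.1) = μ ∧
      π.map (fun p => p.2.1) = μ ∧ π.map (fun p => p.2.2) = μ}, ∫⁻ p, c p ∂π) = D + D + D := by
    apply le_antisymm
    · rw [← hcost]
      exact iInf₂_le π₀ ⟨q0, q1, q2, q3⟩
    · refine le_iInf₂ fun π hπ => ?_
      exact hlow π hπ.2.1 hπ.2.2.1 hπ.2.2.2
  have h3D : D + D + D ≠ ∞ := by
    simp [hDfin]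
  refine ⟨hprob, ?_, ?_⟩
  · rw [hval]; exact lt_top_iff_ne_top.2 h3D
  intro M₂ M₃ hM₂ hM₃ hM₂μ hM₃μ hopt
  rw [hval] at hopt
  have b2 : ∀ᵐ x ∂μ, M₂ x ∈ S := by
    have : ∀ᵐ x ∂(μ.map M₂), x ∈ S := by rw [hM₂μ]; exact hμSae
    exact ae_of_ae_map hM₂.aemeasurable this
  have b3 : ∀ᵐ x ∂μ, M₃ x ∈ S := by
    have : ∀ᵐ x ∂(μ.map M₃), x ∈ S := by rw [hM₃μ]; exact hμSae
    exact ae_of_ae_map hM₃.aemeasurable this
  have i2 : ∫⁻ x, U (M₂ x) ∂μ = D := by
    rw [← lintegral_map hU hM₂, hM₂μ]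
  have i3 : ∫⁻ x, U (M₃ x) ∂μ = D := by
    rw [← lintegral_map hU hM₃, hM₃μ]
  have isum : ∫⁻ x, (U x + U (M₂ x) + U (M₃ x)) ∂μ = D + D + D := by
    rw [lintegral_add_left (by fun_prop), lintegral_add_left (by fun_prop), i2, i3]
  have heq : (fun x => U x + U (M₂ x) + U (M₃ x)) =ᵐ[μ] fun x => c (x, M₂ x, M₃ x) := by
    apply ae_eq_of_ae_le_of_lintegral_le
    · filter_upwards [hμSae, b2, b3] with x y1 y2 y3
      exact H1 _ y1 _ y2 _ y3
    · rw [isum]; exact h3D
    · exact (hc.comp (by fun_prop)).aemeasurable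
    · rw [isum, hopt]
  -- the four pieces of `A`
  let F : Fin 4 → Set α := fun k => A ∩ {x | M₂ x = f k x}
  have hFm : ∀ k, MeasurableSet (F k) := fun k => hA.inter (measurableSet_eq_fun hM₂ (hf k))
  have himg : ∀ k (G : Set α), MeasurableSet G → G ⊆ A → MeasurableSet (f k '' G) ∧
      μ (f k '' G) ≤ ν G := by
    intro k G hG hGA
    have hGm : MeasurableSet (f k '' G) :=
      hG.image_of_measurable_injOn (hf k) ((hinj k).mono hGA)
    refine ⟨hGm, ?_⟩
    have z0 : ν (f k '' G) = 0 := by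
      refine measure_mono_null ?_ hνA
      rintro _ ⟨x, hx, rfl⟩
      exact hdisA k x (hGA hx)
    have z1 : ∀ l, l ≠ k → ν (f l ⁻¹' (f k '' G)) = 0 := by
      intro l hl
      refine measure_mono_null ?_ hνA
      rintro x ⟨y, hy, hyx⟩ hxA
      exact hdis k l (Ne.symm hl) y (hGA hy) x hxA hyx
    have z2 : ν (f k ⁻¹' (f k '' G)) ≤ ν G := by
      have : f k ⁻¹' (f k '' G) ⊆ G ∪ Aᶜ := by
        rintro x ⟨y, hy, hyx⟩
        by_cases hxA : x ∈ A
        · left
          rw [← hinj k (hGA hy) hxA hyx]; exact hy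
        · right; exact hxA
      calc ν (f k ⁻¹' (f k '' G)) ≤ ν (G ∪ Aᶜ) := measure_mono this
        _ ≤ ν G + ν Aᶜ := measure_union_le _ _
        _ = ν G := by rw [hνA, add_zero]
    rw [hμ, muOf_apply ν hf hGm, z0]
    fin_cases k
    · rw [z1 1 (by decide), z1 2 (by decide), z1 3 (by decide)]
      simpa using z2
    · rw [z1 0 (by decide), z1 2 (by decide), z1 3 (by decide)]
      simpa using z2
    · rw [z1 0 (by decide), z1 1 (by decide), z1 3 (by decide)]
      simpa using z2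
    · rw [z1 0 (by decide), z1 1 (by decide), z1 2 (by decide)]
      simpa using z2
  have hνfin' : ∀ G : Set α, ν G ≠ ∞ := fun G =>
    ne_top_of_le_ne_top hνfin (measure_mono (subset_univ _))
  have hF0 : ∀ k, ν (F k) = 0 := by
    intro k
    have hFA : F k ⊆ A := inter_subset_left
    obtain ⟨hGm, hGle⟩ := himg k (F k) (hFm k) hFA
    have h1 : μ (F k) ≤ μ (f k '' F k) := by
      calc μ (F k) ≤ μ (M₂ ⁻¹' (f k '' F k)) := by
            apply measure_mono
            intro x hx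
            exact ⟨x, hx, hx.2.symm⟩
        _ = (μ.map M₂) (f k '' F k) := (Measure.map_apply hM₂ hGm).symm
        _ = μ (f k '' F k) := by rw [hM₂μ]
    have h2 : ν (F k) + ν (F k) ≤ μ (F k) := by
      rw [hμ, muOf_apply ν hf (hFm k), add_assoc (ν (F k) + ν (F k))]
      exact le_self_add
    have h3 : ν (F k) + ν (F k) ≤ ν (F k) := h2.trans (h1.trans hGle)
    have h4 : ν (F k) + ν (F k) ≤ ν (F k) + 0 := by rwa [add_zero]
    have h5 := (ENNReal.add_le_add_iff_left (hνfin' _)).1 h4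
    exact le_antisymm h5 zero_le
  -- almost every point of `A` lies in one of the pieces
  have habs : ν ≤ μ := by
    rw [hμ, muOf]
    intro s
    simp only [Measure.add_apply]
    exact le_trans (le_trans le_self_add le_self_add) le_self_add
  have hνμ : ν ≪ μ := Measure.absolutelyContinuous_of_le habs
  have hcov : ∀ᵐ x ∂ν, ∃ k, x ∈ F k := by
    filter_upwards [hνae, hνμ.ae_le b2, hνμ.ae_le b3, hνμ.ae_le heq] with x hxA hx2 hx3 hxe
    obtain ⟨k, hk⟩ := H3 x hxA _ hx2 _ hx3 hxe.symm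
    exact ⟨k, hxA, hk⟩
  have hnone : ∀ᵐ x ∂ν, ∀ k, x ∉ F k := by
    rw [ae_all_iff]
    intro k
    exact measure_eq_zero_iff_ae_notMem.1 (hF0 k)
  have hfalse : ∀ᵐ x ∂ν, False := by
    filter_upwards [hcov, hnone] with x h1 h2
    obtain ⟨k, hk⟩ := h1
    exact h2 k hk
  have : ν univ = 0 := by
    rw [ae_iff] at hfalse
    simpa using hfalse
  rw [this] at hν
  simp at hν

end Vale.Agent.P121
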