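import Vale.Agent.P121.Global3

namespace Vale.Agent.P121

open scoped RealInnerProductSpace Topology ENNReal NNReal
open Filter Set MeasureTheory

/-- Lebesgue measure of preimages under an injective map with Lipschitz inverse -/
theorem volume_preimage_le {d : ℕ} {A : Set (EuclideanSpace ℝ (Fin d))}
    {f : EuclideanSpace ℝ (Fin d) → EuclideanSpace ℝ (Fin d)} {m : ℝ≥0}
    (hanti : ∀ x ∈ A, ∀ x' ∈ A, ‖x - x'‖ ≤ m * ‖f x - f x'‖) (s : Set (EuclideanSpace ℝ (Fin d))) :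
    volume (A ∩ f ⁻¹' s) ≤ (m : ℝ≥0∞) ^ (d : ℝ) * volume s := by
  have hH : volume (α := EuclideanSpace ℝ (Fin d)) =
      Measure.addHaarScalarFactor (volume : Measure (EuclideanSpace ℝ (Fin d))) μH[d] • μH[d] :=
    Measure.isAddLeftInvariant_eq_smul _ _
  set κ := Measure.addHaarScalarFactor (volume : Measure (EuclideanSpace ℝ (Fin d))) μH[d]
  have hg : AntilipschitzWith m (fun x : A => f x) := by
    apply AntilipschitzWith.of_le_mul_dist
    intro x y
    have := hanti x x.2 y y.2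
    rw [← dist_eq_norm, ← dist_eq_norm] at this
    exact this
  have h1 := hg.hausdorffMeasure_preimage_le (d := (d : ℝ)) (Nat.cast_nonneg d) s
  have h2 : μH[d] (A ∩ f ⁻¹' s) = μH[d] ((fun x : A => f x) ⁻¹' s) := by
    have h3 := (isometry_subtype_coe (s := A)).hausdorffMeasure_image (d := (d : ℝ))
      (Or.inl (Nat.cast_nonneg d)) ((fun x : A => f x) ⁻¹' s)
    rw [← h3]
    congr 1
    ext x
    simp [and_comm]
  rw [hH]
  simp only [Measure.smul_apply, h2]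
  calc κ • μH[d] ((fun x : A => f x) ⁻¹' s) ≤ κ • ((m : ℝ≥0∞) ^ (d : ℝ) * μH[d] s) := by
        gcongr
    _ = (m : ℝ≥0∞) ^ (d : ℝ) * κ • μH[d] s := by
        rw [ENNReal.smul_def, ENNReal.smul_def, smul_eq_mul, smul_eq_mul]; ring

theorem main (d : ℕ) (hd : 2 ≤ d) :
    ∃ μ : Measure (EuclideanSpace ℝ (Fin d)), IsProbabilityMeasure μ ∧
      (∃ C : ℝ≥0, μ ≤ C • volume) ∧ (∃ K, IsCompact K ∧ μ Kᶜ = 0) ∧
      (⨅ π ∈ {π : Measure (EuclideanSpace ℝ (Fin d) × EuclideanSpace ℝ (Fin d) ×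
          EuclideanSpace ℝ (Fin d)) | IsProbabilityMeasure π ∧ π.map (fun p => p.1) = μ ∧
        π.map (fun p => p.2.1) = μ ∧ π.map (fun p => p.2.2) = μ}, ∫⁻ p, cE p ∂π) < ∞ ∧
      ∀ M₂ M₃ : EuclideanSpace ℝ (Fin d) → EuclideanSpace ℝ (Fin d), Measurable M₂ →
        Measurable M₃ → μ.map M₂ = μ → μ.map M₃ = μ → ∫⁻ x, cE (x, M₂ x, M₃ x) ∂μ ≠
      (⨅ π ∈ {π : Measure (EuclideanSpace ℝ (Fin d) × EuclideanSpace ℝ (Fin d) ×
          EuclideanSpace ℝ (Fin d)) | IsProbabilityMeasure π ∧ π.map (fun p => p.1) = μ ∧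
        π.map (fun p => p.2.1) = μ ∧ π.map (fun p => p.2.2) = μ}, ∫⁻ p, cE p ∂π) := by
  classical
  let i₀ : Fin d := ⟨0, by omega⟩
  let i₁ : Fin d := ⟨1, by omega⟩
  have hi : i₀ ≠ i₁ := by
    intro h
    have := congrArg Fin.val h
    simp [i₀, i₁] at this
  let e : EuclideanSpace ℝ (Fin d) := EuclideanSpace.single i₀ 1
  let ρ : EuclideanSpace ℝ (Fin d) ≃ₗᵢ[ℝ] EuclideanSpace ℝ (Fin d) :=
    LinearIsometryEquiv.piLpCongrLeft 2 ℝ ℝ (Equiv.swap i₀ i₁)
  have he : ‖e‖ = 1 := by simp [e]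
  have hρe : ρ e = EuclideanSpace.single i₁ 1 := by
    ext j
    simp only [ρ, e, LinearIsometryEquiv.piLpCongrLeft_apply, PiLp.single_apply]
    simp only [Equiv.piCongrLeft'_apply, Equiv.symm_swap]
    by_cases hj : j = i₁
    · subst hj; simp
    · by_cases hj0 : j = i₀
      · subst hj0; simp [hi, hi.symm]
      · simp [Equiv.swap_apply_of_ne_of_ne hj0 hj, hj, hj0]
  have hort : ⟪e, ρ e⟫ = 0 := by
    rw [hρe]
    simp [e, EuclideanSpace.inner_single_left, hi]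
  have hρ : ∀ x, ρ (ρ x) = x := by
    intro x
    ext j
    simp [ρ]
  obtain ⟨δ, m, f, S, U, hδ, hm, hU, hUle, hS, hAS, hf, hfS, hanti, hdis, hdisA, H1, H2, H2', H3⟩ :=
    global_main he ρ hρ hort
  set A : Set (EuclideanSpace ℝ (Fin d)) := Metric.closedBall 0 δ with hA
  have hAm : MeasurableSet A := Metric.isClosed_closedBall.measurableSet
  have hvol0 : volume A ≠ 0 := (Metric.measure_closedBall_pos volume _ hδ).ne'
  have hvolt : volume A ≠ ∞ := (isCompact_closedBall _ _).measure_lt_top.ne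
  let c₀ : ℝ≥0∞ := (6 : ℝ≥0∞)⁻¹ * (volume A)⁻¹
  have hc₀ : c₀ ≠ ∞ := ENNReal.mul_ne_top (by simp) (ENNReal.inv_ne_top.2 hvol0)
  let ν : Measure (EuclideanSpace ℝ (Fin d)) := c₀ • volume.restrict A
  have hν : 6 * ν univ = 1 := by
    simp only [ν, c₀, Measure.smul_apply, Measure.restrict_apply MeasurableSet.univ, univ_inter,
      smul_eq_mul]
    rw [mul_assoc, ENNReal.inv_mul_cancel hvol0 hvolt, mul_one]
    exact ENNReal.mul_inv_cancel (by norm_num) (by norm_num)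
  have hνA : ν Aᶜ = 0 := by
    simp [ν, Measure.restrict_apply hAm.compl]
  have hmeas : Measurable (cE : EuclideanSpace ℝ (Fin d) × EuclideanSpace ℝ (Fin d) ×
      EuclideanSpace ℝ (Fin d) → ℝ≥0∞) := by
    unfold cE
    fun_prop
  have hinj : ∀ k, InjOn (f k) A := by
    intro k x hx x' hx' hxx
    have := hanti k x hx x' hx'
    rw [hxx, sub_self, norm_zero, mul_zero] at this
    exact sub_eq_zero.1 (norm_le_zero_iff.1 this)
  have key := abstract_no_monge cE hmeas U hU (ENNReal.ofReal 2) (by simp) hUle A S hAm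
    hS.measurableSet hAS f hf hfS hinj hdis hdisA ν hν hνA H1
    (fun x hx => ⟨H2 x hx, by rw [cE_rot]; exact H2 x hx, by rw [cE_rot, cE_rot]; exact H2 x hx⟩)
    (fun x hx => ⟨H2' x hx, by rw [cE_rot]; exact H2' x hx, by
      rw [cE_rot, cE_rot]; exact H2' x hx⟩) H3
  refine ⟨muOf ν f, key.1, ?_, ⟨S, hS, ?_⟩, key.2.1, key.2.2⟩
  · -- bounded density
    have hm' : ∀ k, ∀ x ∈ A, ∀ x' ∈ A, ‖x - x'‖ ≤ (m.toNNReal : ℝ) * ‖f k x - f k x'‖ := by
      intro k x hx x' hx'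
      rw [Real.coe_toNNReal m hm.le]
      exact hanti k x hx x' hx'
    have hb : ∀ k (s : Set (EuclideanSpace ℝ (Fin d))), MeasurableSet s →
        ν (f k ⁻¹' s) ≤ c₀ * ((m.toNNReal : ℝ≥0∞) ^ (d : ℝ) * volume s) := by
      intro k s hs
      simp only [ν, Measure.smul_apply, smul_eq_mul, Measure.restrict_apply ((hf k) hs)]
      rw [inter_comm]
      gcongr
      exact volume_preimage_le (hm' k) s
    have hb0 : ∀ s : Set (EuclideanSpace ℝ (Fin d)), MeasurableSet s → ν s ≤ c₀ * volume s := by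
      intro s hs
      simp only [ν, Measure.smul_apply, smul_eq_mul, Measure.restrict_apply hs]
      gcongr
      exact inter_subset_left
    let C : ℝ≥0∞ := 2 * c₀ + 4 * (c₀ * (m.toNNReal : ℝ≥0∞) ^ (d : ℝ))
    have hC : C ≠ ∞ := by
      have h1 : ((m.toNNReal : ℝ≥0∞)) ^ (d : ℝ) ≠ ∞ :=
        ENNReal.rpow_ne_top_of_nonneg (Nat.cast_nonneg d) ENNReal.coe_ne_top
      exact ENNReal.add_ne_top.2 ⟨ENNReal.mul_ne_top (by norm_num) hc₀,
        ENNReal.mul_ne_top (by norm_num) (ENNReal.mul_ne_top hc₀ h1)⟩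
    refine ⟨C.toNNReal, ?_⟩
    rw [Measure.le_iff]
    intro s hs
    rw [muOf_apply ν hf hs, Measure.smul_apply, ENNReal.smul_def, ENNReal.coe_toNNReal hC,
      smul_eq_mul]
    calc ν s + ν s + (ν (f 0 ⁻¹' s) + ν (f 1 ⁻¹' s)) + (ν (f 2 ⁻¹' s) + ν (f 3 ⁻¹' s))
        ≤ c₀ * volume s + c₀ * volume s + (c₀ * ((m.toNNReal : ℝ≥0∞) ^ (d : ℝ) * volume s)
          + c₀ * ((m.toNNReal : ℝ≥0∞) ^ (d : ℝ) * volume s))
          + (c₀ * ((m.toNNReal : ℝ≥0∞) ^ (d : ℝ) * volume s)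
          + c₀ * ((m.toNNReal : ℝ≥0∞) ^ (d : ℝ) * volume s)) := by
          gcongr <;> first | exact hb0 s hs | exact hb _ s hs
      _ = C * volume s := by
          simp only [C]; ring
  · have h0 : ν Sᶜ = 0 := measure_mono_null (compl_subset_compl.2 hAS) hνA
    have h1 : ∀ k, ν (f k ⁻¹' Sᶜ) = 0 := by
      intro k
      refine measure_mono_null ?_ hνA
      intro x hx hxA
      exact hx (hfS k x hxA)
    rw [muOf_apply ν hf hS.measurableSet.compl, h0, h1, h1, h1, h1]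
    simp

end Vale.Agent.P121
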