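import Mathlib

namespace Vale.Agent.P121

open scoped RealInnerProductSpace Topology
open Filter

variable {E : Type*} [NormedAddCommGroup E] [InnerProductSpace ℝ E]

/-- the Coulomb force field -/
noncomputable def kf (r : E) : E := (‖r‖ ^ 3)⁻¹ • r

/-- the derivative of `kf` -/
noncomputable def kf' (r : E) : E →L[ℝ] E :=
  (‖r‖ ^ 3)⁻¹ • ContinuousLinearMap.id ℝ E
    + ((-3 * (‖r‖ ^ 5)⁻¹) • innerSL ℝ r).smulRight r

theorem kf'_apply (r h : E) :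
    kf' r h = (‖r‖ ^ 3)⁻¹ • h - (3 * (‖r‖ ^ 5)⁻¹ * ⟪r, h⟫) • r := by
  simp [kf', sub_eq_add_neg, ← neg_smul]

theorem hasStrictFDerivAt_kf {r : E} (hr : r ≠ 0) : HasStrictFDerivAt (kf : E → E) (kf' r) r := by
  have hpos : 0 < ‖r‖ := norm_pos_iff.2 hr
  have h1 : HasStrictFDerivAt (fun x : E => ‖x‖ ^ 2) (2 • (innerSL ℝ r)) r :=
    hasStrictFDerivAt_norm_sq r
  have h2 : HasStrictFDerivAt (fun x : E => √(‖x‖ ^ 2)) _ r :=
    h1.sqrt (by positivity)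
  have h3 : (fun x : E => √(‖x‖ ^ 2)) = fun x => ‖x‖ := by
    funext x; exact Real.sqrt_sq (norm_nonneg x)
  rw [h3] at h2
  have h4 : HasStrictDerivAt (fun t : ℝ => (t ^ 3)⁻¹) (-(3 * ‖r‖ ^ 2) / (‖r‖ ^ 3) ^ 2) ‖r‖ := by
    have h0 : HasStrictDerivAt (fun t : ℝ => t⁻¹) (-((‖r‖ ^ 3) ^ 2)⁻¹) (‖r‖ ^ 3) :=
      hasStrictDerivAt_inv (by positivity)
    have := HasStrictDerivAt.comp (h := fun x : ℝ => x ^ 3) ‖r‖ h0 (hasStrictDerivAt_pow 3 ‖r‖)
    refine this.congr_deriv ?_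
    simp
    field_simp
  have h5 := h4.comp_hasStrictFDerivAt r h2
  have h6 := h5.smul (hasStrictFDerivAt_id r)
  have h7 : (fun x : E => (‖x‖ ^ 3)⁻¹ • id x) = kf := by
    funext x; simp [kf]
  refine (h6.congr_fderiv ?_)
  ext h
  simp only [kf'_apply, Function.comp, id]
  simp [Real.sqrt_sq (norm_nonneg r), sub_eq_add_neg, ← neg_smul, smul_smul]
  congr 2
  field_simp

/-- the Coulomb potential energy has gradient `-kf` -/
theorem hasFDerivAt_inv_norm {r : E} (hr : r ≠ 0) :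
    HasFDerivAt (fun x : E => ‖x‖⁻¹) (-(innerSL ℝ (kf r))) r := by
  have hpos : 0 < ‖r‖ := norm_pos_iff.2 hr
  have h1 : HasStrictFDerivAt (fun x : E => ‖x‖ ^ 2) (2 • (innerSL ℝ r)) r :=
    hasStrictFDerivAt_norm_sq r
  have h2 : HasStrictFDerivAt (fun x : E => √(‖x‖ ^ 2)) _ r :=
    h1.sqrt (by positivity)
  have h3 : (fun x : E => √(‖x‖ ^ 2)) = fun x => ‖x‖ := by
    funext x; exact Real.sqrt_sq (norm_nonneg x)
  rw [h3] at h2
  have h4 : HasStrictDerivAt (fun t : ℝ => t⁻¹) (-(‖r‖ ^ 2)⁻¹) ‖r‖ := by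
    exact hasStrictDerivAt_inv (ne_of_gt hpos)
  have h5 := (h4.comp_hasStrictFDerivAt r h2).hasFDerivAt
  refine (h5.congr_fderiv ?_)
  ext h
  simp [kf, Real.sqrt_sq (norm_nonneg r)]
  field_simp

end Vale.Agent.P121
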