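import Vale.Agent.P121.Local4

namespace Vale.Agent.P121

open scoped RealInnerProductSpace Topology ENNReal
open Filter Set

set_option linter.unusedSectionVars false

variable {E : Type*} [NormedAddCommGroup E] [InnerProductSpace ℝ E]

/-- the Coulomb cost of a triple -/
noncomputable def cE (p : E × E × E) : ℝ≥0∞ :=
  (edist p.1 p.2.1)⁻¹ + (edist p.1 p.2.2)⁻¹ + (edist p.2.1 p.2.2)⁻¹

theorem cE_swap23 (x y z : E) : cE (x, z, y) = cE (x, y, z) := by
  simp only [cE, edist_comm z y]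
  ring

theorem cE_rot (x y z : E) : cE (y, z, x) = cE (x, y, z) := by
  simp only [cE, edist_comm y x, edist_comm z x]
  ring

theorem cE_swap12 (x y z : E) : cE (y, x, z) = cE (x, y, z) := by
  simp only [cE, edist_comm y x]
  ring

theorem inv_edist_eq {x y : E} (h : x ≠ y) : (edist x y)⁻¹ = ENNReal.ofReal (‖x - y‖⁻¹) := by
  rw [edist_dist, dist_eq_norm, ENNReal.ofReal_inv_of_pos (norm_pos_iff.2 (sub_ne_zero.2 h))]

theorem cE_eq {x y z : E} (hxy : x ≠ y) (hxz : x ≠ z) (hyz : y ≠ z) :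
    cE (x, y, z) = ENNReal.ofReal (cR x y z) := by
  simp only [cE, cR]
  rw [inv_edist_eq hxy, inv_edist_eq hxz, inv_edist_eq hyz,
    ENNReal.ofReal_add (by positivity) (by positivity),
    ENNReal.ofReal_add (by positivity) (by positivity)]

theorem inv_edist_ge {x y : E} {w : ℝ} (hw : 0 < w) (h : dist x y ≤ w⁻¹) :
    ENNReal.ofReal w ≤ (edist x y)⁻¹ := by
  rw [ENNReal.le_inv_iff_le_inv, edist_dist, ← ENNReal.ofReal_inv_of_pos hw]
  exact ENNReal.ofReal_le_ofReal h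

/-- lower bounds (in thousandths) for inverse distances between the five clusters -/
def Wt : Fin 5 → Fin 5 → ℕ
  | 0, 0 => 50000
  | 0, _ => 980
  | _, 0 => 980
  | 1, 1 => 50000
  | 2, 2 => 50000
  | 3, 3 => 50000
  | 4, 4 => 50000
  | 1, 2 => 495
  | 2, 1 => 495
  | 3, 4 => 495
  | 4, 3 => 495
  | _, _ => 696

/-- upper bounds (in thousandths) for the potentials -/
def Kt : Fin 5 → ℕ
  | 0 => 2000
  | _ => 300

/-- the compatible triples of clusters -/
def Good (i j k : Fin 5) : Bool :=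
  (i, j, k) ∈ [((0 : Fin 5), (1 : Fin 5), (2 : Fin 5)), (0, 2, 1), (1, 0, 2), (1, 2, 0), (2, 0, 1),
    (2, 1, 0), (0, 3, 4), (0, 4, 3), (3, 0, 4), (3, 4, 0), (4, 0, 3), (4, 3, 0)]

theorem table (i j k : Fin 5) (h : Good i j k = false) :
    Kt i + Kt j + Kt k < Wt i j + Wt i k + Wt j k := by
  revert i j k
  decide

/-- the cluster centres -/
noncomputable def ctr (e e' : E) : Fin 5 → E := ![0, e, -e, e', -e']

theorem norm_sub_le_of_sq {x : E} {r : ℝ} (hr : 0 ≤ r) (h : ‖x‖ ^ 2 ≤ r ^ 2) : ‖x‖ ≤ r :=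
  abs_le_of_sq_le_sq' h hr |>.2

theorem ctr_dist {e e' : E} (he : ‖e‖ = 1) (he' : ‖e'‖ = 1) (hort : ⟪e, e'⟫ = 0) (i j : Fin 5) :
    dist (ctr e e' i) (ctr e e' j) + 1 / 50 ≤ ((Wt i j : ℝ) / 1000)⁻¹ := by
  have hort' : ⟪e', e⟫ = 0 := by rw [real_inner_comm]; exact hort
  have h2 : ‖e + e‖ = 2 := by
    rw [← two_smul ℝ e, norm_smul, he]; norm_num
  have h2' : ‖e' + e'‖ = 2 := by
    rw [← two_smul ℝ e', norm_smul, he']; norm_num
  have k1 : ‖e - e'‖ ≤ 283 / 200 := by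
    apply norm_sub_le_of_sq (by norm_num)
    rw [norm_sub_sq_real, he, he', hort]; norm_num
  have k2 : ‖e + e'‖ ≤ 283 / 200 := by
    apply norm_sub_le_of_sq (by norm_num)
    rw [norm_add_sq_real, he, he', hort]; norm_num
  have k1' : ‖e' - e‖ ≤ 283 / 200 := by rw [norm_sub_rev]; exact k1
  have k2' : ‖e' + e‖ ≤ 283 / 200 := by rw [add_comm]; exact k2
  have l1 : ‖-e - e'‖ ≤ 283 / 200 := by
    rw [← norm_neg, neg_sub, sub_neg_eq_add]; exact k2'
  have l2 : ‖-e' - e‖ ≤ 283 / 200 := by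
    rw [← norm_neg, neg_sub, sub_neg_eq_add]; exact k2
  have l3 : ‖-e + e'‖ ≤ 283 / 200 := by
    rw [neg_add_eq_sub]; exact k1'
  have l4 : ‖-e' + e‖ ≤ 283 / 200 := by
    rw [neg_add_eq_sub]; exact k1
  have l5 : ‖-e - e‖ = 2 := by
    rw [← norm_neg, neg_sub, sub_neg_eq_add, h2]
  have l6 : ‖-e' - e'‖ = 2 := by
    rw [← norm_neg, neg_sub, sub_neg_eq_add, h2']
  have c1 : (1000 / 696 : ℝ) ≥ 283 / 200 + 1 / 50 := by norm_num
  fin_cases i <;> fin_cases j <;>
    simp [ctr, Wt, dist_eq_norm, he, he', h2, h2', l5, l6] <;> first | (norm_num; done) | linarith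

theorem Wt_pos (i j : Fin 5) : 0 < Wt i j := by
  revert i j
  decide

theorem inv_edist_cluster {e e' : E} (he : ‖e‖ = 1) (he' : ‖e'‖ = 1) (hort : ⟪e, e'⟫ = 0)
    {i j : Fin 5} {x y : E} (hx : x ∈ Metric.closedBall (ctr e e' i) (1 / 100))
    (hy : y ∈ Metric.closedBall (ctr e e' j) (1 / 100)) :
    ENNReal.ofReal ((Wt i j : ℝ) / 1000) ≤ (edist x y)⁻¹ := by
  have hW : (0 : ℝ) < (Wt i j : ℝ) / 1000 := by
    have := Wt_pos i j
    positivity
  apply inv_edist_ge hW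
  have h1 := ctr_dist he he' hort i j
  rw [Metric.mem_closedBall] at hx hy
  have h3 : dist x y ≤ dist x (ctr e e' i) + dist (ctr e e' i) (ctr e e' j)
      + dist (ctr e e' j) y := dist_triangle4 _ _ _ _
  rw [dist_comm (ctr e e' j) y] at h3
  linarith

/-- incompatible triples cost strictly more than the potentials -/
theorem cE_gt_of_not_good {e e' : E} (he : ‖e‖ = 1) (he' : ‖e'‖ = 1) (hort : ⟪e, e'⟫ = 0)
    {i j k : Fin 5} (hg : Good i j k = false) {x y z : E}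
    (hx : x ∈ Metric.closedBall (ctr e e' i) (1 / 100))
    (hy : y ∈ Metric.closedBall (ctr e e' j) (1 / 100))
    (hz : z ∈ Metric.closedBall (ctr e e' k) (1 / 100)) {a b c : ℝ≥0∞}
    (ha : a ≤ ENNReal.ofReal ((Kt i : ℝ) / 1000)) (hb : b ≤ ENNReal.ofReal ((Kt j : ℝ) / 1000))
    (hc : c ≤ ENNReal.ofReal ((Kt k : ℝ) / 1000)) :
    a + b + c < cE (x, y, z) := by
  have t := table i j k hg
  have t' : (Kt i : ℝ) / 1000 + (Kt j : ℝ) / 1000 + (Kt k : ℝ) / 1000
      < (Wt i j : ℝ) / 1000 + (Wt i k : ℝ) / 1000 + (Wt j k : ℝ) / 1000 := by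
    have : ((Kt i + Kt j + Kt k : ℕ) : ℝ) < ((Wt i j + Wt i k + Wt j k : ℕ) : ℝ) := by
      exact_mod_cast t
    push_cast at this
    linarith
  calc a + b + c ≤ ENNReal.ofReal ((Kt i : ℝ) / 1000) + ENNReal.ofReal ((Kt j : ℝ) / 1000)
        + ENNReal.ofReal ((Kt k : ℝ) / 1000) := by gcongr
    _ = ENNReal.ofReal ((Kt i : ℝ) / 1000 + (Kt j : ℝ) / 1000 + (Kt k : ℝ) / 1000) := by
        rw [ENNReal.ofReal_add (by positivity) (by positivity),
          ENNReal.ofReal_add (by positivity) (by positivity)]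
    _ < ENNReal.ofReal ((Wt i j : ℝ) / 1000 + (Wt i k : ℝ) / 1000 + (Wt j k : ℝ) / 1000) := by
        apply (ENNReal.ofReal_lt_ofReal_iff_of_nonneg (by positivity)).2 t'
    _ = ENNReal.ofReal ((Wt i j : ℝ) / 1000) + ENNReal.ofReal ((Wt i k : ℝ) / 1000)
        + ENNReal.ofReal ((Wt j k : ℝ) / 1000) := by
        rw [ENNReal.ofReal_add (by positivity) (by positivity),
          ENNReal.ofReal_add (by positivity) (by positivity)]
    _ ≤ cE (x, y, z) := by
        simp only [cE]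
        gcongr
        · exact inv_edist_cluster he he' hort hx hy
        · exact inv_edist_cluster he he' hort hx hz
        · exact inv_edist_cluster he he' hort hy hz

end Vale.Agent.P121
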