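import Vale.Agent.P121.Global1
import Vale.Agent.P121.Abstract

namespace Vale.Agent.P121

open scoped RealInnerProductSpace Topology ENNReal
open Filter Set MeasureTheory

set_option linter.unusedSectionVars false

variable {E : Type*} [NormedAddCommGroup E] [InnerProductSpace ℝ E]

theorem continuousOn_of_bound {A : Set E} {g : E → E} {m : ℝ}
    (h : ∀ x ∈ A, ∀ x' ∈ A, ‖g x - g x'‖ ≤ m * ‖x - x'‖) : ContinuousOn g A := by
  have hl : LipschitzOnWith (Real.toNNReal m) g A := by
    apply LipschitzOnWith.of_dist_le_mul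
    intro x hx y hy
    rw [dist_eq_norm, dist_eq_norm]
    refine (h x hx y hy).trans ?_
    gcongr
    exact Real.le_coe_toNNReal m
  exact hl.continuousOn

theorem measurable_transport [MeasurableSpace E] [BorelSpace E] {A : Set E} (hA : IsCompact A)
    {f : E → E} (hf : ContinuousOn f A) {m : ℝ}
    (hanti : ∀ x ∈ A, ∀ x' ∈ A, ‖x - x'‖ ≤ m * ‖f x - f x'‖) {h : E → ℝ}
    (hh : ContinuousOn h A) :
    Measurable ((f '' A).indicator (fun y => h (Function.invFunOn f A y))) := by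
  classical
  have hc : IsCompact (f '' A) := hA.image_of_continuousOn hf
  have hinv : ContinuousOn (Function.invFunOn f A) (f '' A) := by
    apply continuousOn_of_bound (m := m)
    intro y hy y' hy'
    have h1 := Function.invFunOn_mem hy
    have h2 := Function.invFunOn_mem hy'
    have h3 := Function.invFunOn_eq hy
    have h4 := Function.invFunOn_eq hy'
    have := hanti _ h1 _ h2
    rwa [h3, h4] at this
  have hmaps : MapsTo (Function.invFunOn f A) (f '' A) A := fun y hy => Function.invFunOn_mem hy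
  have hcomp : ContinuousOn (fun y => h (Function.invFunOn f A y)) (f '' A) :=
    hh.comp hinv hmaps
  rw [← Set.piecewise_eq_indicator]
  exact hcomp.measurable_piecewise continuousOn_const hc.measurableSet

/-- comparison property of a potential on a triple -/
def QQ (U : E → ℝ≥0∞) (x y z : E) : Prop := U x + U y + U z ≤ cE (x, y, z)

theorem QQ.swap12 {U : E → ℝ≥0∞} {x y z : E} (h : QQ U x y z) : QQ U y x z := by
  unfold QQ at *
  rw [cE_swap12, add_comm (U y)]
  exact h

theorem QQ.swap23 {U : E → ℝ≥0∞} {x y z : E} (h : QQ U x y z) : QQ U x z y := by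
  unfold QQ at *
  rw [cE_swap23, add_assoc, add_comm (U z), ← add_assoc]
  exact h

theorem cR_isom (ρ : E ≃ₗᵢ[ℝ] E) (x y z : E) : cR (ρ x) (ρ y) (ρ z) = cR x y z := by
  simp only [cR, ← map_sub, LinearIsometryEquiv.norm_map]

theorem uA_isom (ρ : E ≃ₗᵢ[ℝ] E) (x : E) : uA (ρ x) = uA x := by
  simp only [uA, LinearIsometryEquiv.norm_map]

theorem ctr_sep {e e' : E} (he : ‖e‖ = 1) (he' : ‖e'‖ = 1) (hort : ⟪e, e'⟫ = 0) {i j : Fin 5}
    (hij : i ≠ j) : 1 ≤ dist (ctr e e' i) (ctr e e' j) := by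
  have hort' : ⟪e', e⟫ = 0 := by rw [real_inner_comm]; exact hort
  have h2 : ‖e + e‖ = 2 := by
    rw [← two_smul ℝ e, norm_smul, he]; norm_num
  have h2' : ‖e' + e'‖ = 2 := by
    rw [← two_smul ℝ e', norm_smul, he']; norm_num
  have gen : ∀ x : E, 1 ≤ ‖x‖ ^ 2 → 1 ≤ ‖x‖ := by
    intro x hx
    nlinarith [norm_nonneg x]
  have k1 : 1 ≤ ‖e - e'‖ := by
    apply gen
    rw [norm_sub_sq_real, he, he', hort]; norm_num
  have k2 : 1 ≤ ‖e + e'‖ := by
    apply gen
    rw [norm_add_sq_real, he, he', hort]; norm_num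
  have k1' : 1 ≤ ‖e' - e‖ := by rw [norm_sub_rev]; exact k1
  have k2' : 1 ≤ ‖e' + e‖ := by rw [add_comm]; exact k2
  have l1 : 1 ≤ ‖-e - e'‖ := by
    rw [← norm_neg, neg_sub, sub_neg_eq_add]; exact k2'
  have l2 : 1 ≤ ‖-e' - e‖ := by
    rw [← norm_neg, neg_sub, sub_neg_eq_add]; exact k2
  have l3 : 1 ≤ ‖-e + e'‖ := by
    rw [neg_add_eq_sub]; exact k1'
  have l4 : 1 ≤ ‖-e' + e‖ := by
    rw [neg_add_eq_sub]; exact k1
  have l5 : ‖-e - e‖ = 2 := by
    rw [← norm_neg, neg_sub, sub_neg_eq_add, h2]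
  have l6 : ‖-e' - e'‖ = 2 := by
    rw [← norm_neg, neg_sub, sub_neg_eq_add, h2']
  fin_cases i <;> fin_cases j <;>
    first
    | exact absurd rfl hij
    | simp [ctr, dist_eq_norm, he, he', h2, h2', l5, l6, k1, k2, k1', k2', l1, l2, l3, l4]

theorem ne_of_cluster {e e' : E} (he : ‖e‖ = 1) (he' : ‖e'‖ = 1) (hort : ⟪e, e'⟫ = 0)
    {i j : Fin 5} (hij : i ≠ j) {x y : E} (hx : x ∈ Metric.closedBall (ctr e e' i) (1 / 100))
    (hy : y ∈ Metric.closedBall (ctr e e' j) (1 / 100)) : x ≠ y := by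
  rintro rfl
  have h1 := ctr_sep he he' hort hij
  rw [Metric.mem_closedBall] at hx hy
  have h3 := dist_triangle_left (ctr e e' i) (ctr e e' j) x
  linarith

end Vale.Agent.P121
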