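import Vale.Agent.P121.Global2

namespace Vale.Agent.P121

open scoped RealInnerProductSpace Topology ENNReal
open Filter Set MeasureTheory

variable {E : Type*} [NormedAddCommGroup E] [InnerProductSpace ℝ E] [FiniteDimensional ℝ E]
  [MeasurableSpace E] [BorelSpace E]

theorem global_main {e : E} (he : ‖e‖ = 1) (ρ : E ≃ₗᵢ[ℝ] E) (hρ : ∀ x, ρ (ρ x) = x)
    (hort : ⟪e, ρ e⟫ = 0) :
    ∃ (δ m : ℝ) (f : Fin 4 → E → E) (S : Set E) (U : E → ℝ≥0∞),
      0 < δ ∧ 0 < m ∧ Measurable U ∧ (∀ x, U x ≤ ENNReal.ofReal 2) ∧ IsCompact S ∧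
      Metric.closedBall 0 δ ⊆ S ∧ (∀ k, Measurable (f k)) ∧
      (∀ k, ∀ x ∈ Metric.closedBall (0 : E) δ, f k x ∈ S) ∧
      (∀ k, ∀ x ∈ Metric.closedBall (0 : E) δ, ∀ x' ∈ Metric.closedBall (0 : E) δ,
        ‖x - x'‖ ≤ m * ‖f k x - f k x'‖) ∧
      (∀ k l, k ≠ l → ∀ x ∈ Metric.closedBall (0 : E) δ, ∀ x' ∈ Metric.closedBall (0 : E) δ,
        f k x ≠ f l x') ∧
      (∀ k, ∀ x ∈ Metric.closedBall (0 : E) δ, f k x ∉ Metric.closedBall (0 : E) δ) ∧
      (∀ x ∈ S, ∀ y ∈ S, ∀ z ∈ S, U x + U y + U z ≤ cE (x, y, z)) ∧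
      (∀ x ∈ Metric.closedBall (0 : E) δ, cE (x, f 0 x, f 1 x) = U x + U (f 0 x) + U (f 1 x)) ∧
      (∀ x ∈ Metric.closedBall (0 : E) δ, cE (x, f 2 x, f 3 x) = U x + U (f 2 x) + U (f 3 x)) ∧
      (∀ x ∈ Metric.closedBall (0 : E) δ, ∀ y ∈ S, ∀ z ∈ S,
        cE (x, y, z) = U x + U y + U z → ∃ k, y = f k x) := by
  classical
  obtain ⟨T, R, δ, m, hδ, hδ1, hm, hball, hlip, hpot, hmin⟩ := local_main he
  set A : Set E := Metric.closedBall (0 : E) δ with hA
  have hAc : IsCompact A := isCompact_closedBall _ _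
  have hAm : MeasurableSet A := hAc.measurableSet
  have he' : ‖ρ e‖ = 1 := by rw [LinearIsometryEquiv.norm_map, he]
  have hρA : ∀ x ∈ A, ρ x ∈ A := by
    intro x hx
    rw [hA, mem_closedBall_zero_iff] at hx ⊢
    rwa [LinearIsometryEquiv.norm_map]
  have hTc : ContinuousOn T A := continuousOn_of_bound (m := m) fun x hx x' hx' =>
    (hlip x hx x' hx').2.2.1
  have hRc : ContinuousOn R A := continuousOn_of_bound (m := m) fun x hx x' hx' =>
    (hlip x hx x' hx').2.2.2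
  -- the maps, cut off outside `A`
  let T₁ : E → E := A.piecewise T (fun _ => 0)
  let R₁ : E → E := A.piecewise R (fun _ => 0)
  have hT₁ : ∀ x ∈ A, T₁ x = T x := fun x hx => A.piecewise_eq_of_mem _ _ hx
  have hR₁ : ∀ x ∈ A, R₁ x = R x := fun x hx => A.piecewise_eq_of_mem _ _ hx
  have hT₁m : Measurable T₁ := hTc.measurable_piecewise continuousOn_const hAm
  have hR₁m : Measurable R₁ := hRc.measurable_piecewise continuousOn_const hAm
  have hρm : Measurable ρ := ρ.continuous.measurable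
  let F : Fin 5 → E → E := ![id, T₁, R₁, fun x => ρ (T₁ (ρ x)), fun x => ρ (R₁ (ρ x))]
  let H : Fin 5 → E → ℝ := ![uA, fun x => gE e x (T x) (R x), fun x => wC e (R x),
    fun x => gE e (ρ x) (T (ρ x)) (R (ρ x)), fun x => wC e (R (ρ x))]
  have hFm : ∀ i, Measurable (F i) := by
    intro i
    fin_cases i
    · exact measurable_id
    · exact hT₁m
    · exact hR₁m
    · exact hρm.comp (hT₁m.comp hρm)
    · exact hρm.comp (hR₁m.comp hρm)
  have hFb : ∀ i, ∀ x ∈ A, F i x ∈ Metric.closedBall (ctr e (ρ e) i) (1 / 100) := by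
    intro i x hx
    fin_cases i
    · exact Metric.closedBall_subset_closedBall hδ1 hx
    · show T₁ x ∈ Metric.closedBall e (1 / 100)
      rw [hT₁ x hx]; exact (hball x hx).1
    · show R₁ x ∈ Metric.closedBall (-e) (1 / 100)
      rw [hR₁ x hx]; exact (hball x hx).2
    · show ρ (T₁ (ρ x)) ∈ Metric.closedBall (ρ e) (1 / 100)
      rw [hT₁ _ (hρA x hx), Metric.mem_closedBall, ρ.dist_map]
      exact (hball _ (hρA x hx)).1
    · show ρ (R₁ (ρ x)) ∈ Metric.closedBall (-ρ e) (1 / 100)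
      rw [hR₁ _ (hρA x hx), ← map_neg, Metric.mem_closedBall, ρ.dist_map]
      exact (hball _ (hρA x hx)).2
  have hρsub : ∀ x y, ‖ρ x - ρ y‖ = ‖x - y‖ := by
    intro x y
    rw [← map_sub, LinearIsometryEquiv.norm_map]
  have hFanti : ∀ i, ∀ x ∈ A, ∀ x' ∈ A, ‖x - x'‖ ≤ max m 1 * ‖F i x - F i x'‖ := by
    intro i x hx x' hx'
    have hm1 : m ≤ max m 1 := le_max_left _ _
    fin_cases i
    · show ‖x - x'‖ ≤ max m 1 * ‖x - x'‖
      exact le_mul_of_one_le_left (norm_nonneg _) (le_max_right _ _)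
    · show ‖x - x'‖ ≤ max m 1 * ‖T₁ x - T₁ x'‖
      rw [hT₁ x hx, hT₁ x' hx']
      exact ((hlip x hx x' hx').1).trans (by gcongr)
    · show ‖x - x'‖ ≤ max m 1 * ‖R₁ x - R₁ x'‖
      rw [hR₁ x hx, hR₁ x' hx']
      exact ((hlip x hx x' hx').2.1).trans (by gcongr)
    · show ‖x - x'‖ ≤ max m 1 * ‖ρ (T₁ (ρ x)) - ρ (T₁ (ρ x'))‖
      rw [hT₁ _ (hρA x hx), hT₁ _ (hρA x' hx'), hρsub, ← hρsub x x']
      exact ((hlip _ (hρA x hx) _ (hρA x' hx')).1).trans (by gcongr)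
    · show ‖x - x'‖ ≤ max m 1 * ‖ρ (R₁ (ρ x)) - ρ (R₁ (ρ x'))‖
      rw [hR₁ _ (hρA x hx), hR₁ _ (hρA x' hx'), hρsub, ← hρsub x x']
      exact ((hlip _ (hρA x hx) _ (hρA x' hx')).2.1).trans (by gcongr)
  have hFc : ∀ i, ContinuousOn (F i) A := by
    have hT₁c : ContinuousOn T₁ A := hTc.congr hT₁
    have hR₁c : ContinuousOn R₁ A := hRc.congr hR₁
    have hρc : ContinuousOn ρ A := ρ.continuous.continuousOn
    intro i
    fin_cases i
    · exact continuousOn_id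
    · exact hT₁c
    · exact hR₁c
    · exact ρ.continuous.comp_continuousOn (hT₁c.comp hρc hρA)
    · exact ρ.continuous.comp_continuousOn (hR₁c.comp hρc hρA)
  have hsep : ∀ i j, i ≠ j → ∀ x ∈ A, ∀ x' ∈ A, F i x ≠ F j x' := by
    intro i j hij x hx x' hx'
    exact ne_of_cluster he he' hort hij (hFb i x hx) (hFb j x' hx')
  have hFinj : ∀ i, InjOn (F i) A := by
    intro i x hx x' hx' hxx
    have := hFanti i x hx x' hx'
    rw [hxx, sub_self, norm_zero, mul_zero] at this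
    exact sub_eq_zero.1 (norm_le_zero_iff.1 this)
  -- nonvanishing of the differences
  have n01 : ∀ x ∈ A, ∀ y ∈ A, x ≠ T y := by
    intro x hx y hy
    have := hsep 0 1 (by decide) x hx y hy
    simpa [F, hT₁ y hy] using this
  have n02 : ∀ x ∈ A, ∀ y ∈ A, x ≠ R y := by
    intro x hx y hy
    have := hsep 0 2 (by decide) x hx y hy
    simpa [F, hR₁ y hy] using this
  have n12 : ∀ x ∈ A, ∀ y ∈ A, T x ≠ R y := by
    intro x hx y hy
    have := hsep 1 2 (by decide) x hx y hy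
    simpa [F, hR₁ y hy, hT₁ x hx] using this
  have hgc : ContinuousOn (fun x => gE e x (T x) (R x)) A := by
    unfold gE cR uA wC
    have a1 : ContinuousOn (fun x => ‖x - T x‖⁻¹) A := by
      apply ContinuousOn.inv₀ (by fun_prop)
      intro x hx
      exact norm_ne_zero_iff.2 (sub_ne_zero.2 (n01 x hx x hx))
    have a2 : ContinuousOn (fun x => ‖x - R x‖⁻¹) A := by
      apply ContinuousOn.inv₀ (by fun_prop)
      intro x hx
      exact norm_ne_zero_iff.2 (sub_ne_zero.2 (n02 x hx x hx))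
    have a3 : ContinuousOn (fun x => ‖T x - R x‖⁻¹) A := by
      apply ContinuousOn.inv₀ (by fun_prop)
      intro x hx
      exact norm_ne_zero_iff.2 (sub_ne_zero.2 (n12 x hx x hx))
    fun_prop
  have hwc : ContinuousOn (fun x => wC e (R x)) A := by
    unfold wC
    fun_prop
  have hHc : ∀ i, ContinuousOn (H i) A := by
    have hρc : ContinuousOn ρ A := ρ.continuous.continuousOn
    intro i
    fin_cases i
    · show ContinuousOn uA A
      unfold uA
      fun_prop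
    · exact hgc
    · exact hwc
    · exact hgc.comp hρc hρA
    · exact hwc.comp hρc hρA
  have hHb : ∀ i, ∀ x ∈ A, 0 ≤ H i x ∧ H i x ≤ (Kt i : ℝ) / 1000 := by
    intro i x hx
    have hx' : ‖x‖ ≤ 1 / 100 := by
      rw [hA, mem_closedBall_zero_iff] at hx; linarith
    have p1 := hpot x hx
    have p2 := hpot _ (hρA x hx)
    rw [abs_le, abs_le] at p1 p2
    fin_cases i
    · show 0 ≤ uA x ∧ uA x ≤ ((2000 : ℕ) : ℝ) / 1000
      unfold uA
      push_cast
      constructor <;> nlinarith [norm_nonneg x]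
    · show 0 ≤ gE e x (T x) (R x) ∧ gE e x (T x) (R x) ≤ ((300 : ℕ) : ℝ) / 1000
      push_cast
      constructor <;> linarith [p1.1.1, p1.1.2]
    · show 0 ≤ wC e (R x) ∧ wC e (R x) ≤ ((300 : ℕ) : ℝ) / 1000
      push_cast
      constructor <;> linarith [p1.2.1, p1.2.2]
    · show 0 ≤ gE e (ρ x) (T (ρ x)) (R (ρ x)) ∧
        gE e (ρ x) (T (ρ x)) (R (ρ x)) ≤ ((300 : ℕ) : ℝ) / 1000
      push_cast
      constructor <;> linarith [p2.1.1, p2.1.2]
    · show 0 ≤ wC e (R (ρ x)) ∧ wC e (R (ρ x)) ≤ ((300 : ℕ) : ℝ) / 1000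
      push_cast
      constructor <;> linarith [p2.2.1, p2.2.2]
  -- the potential
  let Ur : E → ℝ := fun y => ∑ i, (F i '' A).indicator
    (fun y => H i (Function.invFunOn (F i) A y)) y
  have hUr : ∀ i, ∀ x ∈ A, Ur (F i x) = H i x := by
    intro i x hx
    have hz : ∀ j, j ≠ i → (F j '' A).indicator
        (fun y => H j (Function.invFunOn (F j) A y)) (F i x) = 0 := by
      intro j hj
      apply indicator_of_notMem
      rintro ⟨x', hx', h⟩
      exact hsep j i hj x' hx' x hx h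
    show ∑ j, (F j '' A).indicator (fun y => H j (Function.invFunOn (F j) A y)) (F i x) = H i x
    rw [Finset.sum_eq_single i (fun j _ hj => hz j hj) (fun h => absurd (Finset.mem_univ i) h),
      indicator_of_mem (mem_image_of_mem _ hx)]
    congr 1
    exact (hFinj i).leftInvOn_invFunOn hx
  have hUr0 : ∀ y, (∀ i, y ∉ F i '' A) → Ur y = 0 := by
    intro y hy
    show ∑ j, (F j '' A).indicator (fun y => H j (Function.invFunOn (F j) A y)) y = 0
    apply Finset.sum_eq_zero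
    intro j _
    exact indicator_of_notMem (hy j) _
  have hUrm : Measurable Ur := by
    apply Finset.measurable_fun_sum
    intro i _
    exact measurable_transport hAc (hFc i) (hFanti i) (hHc i)
  let U : E → ℝ≥0∞ := fun y => ENNReal.ofReal (Ur y)
  have hU : ∀ i, ∀ x ∈ A, U (F i x) = ENNReal.ofReal (H i x) := by
    intro i x hx
    show ENNReal.ofReal (Ur (F i x)) = _
    rw [hUr i x hx]
  have hUle : ∀ i, ∀ x ∈ A, U (F i x) ≤ ENNReal.ofReal ((Kt i : ℝ) / 1000) := by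
    intro i x hx
    rw [hU i x hx]
    exact ENNReal.ofReal_le_ofReal (hHb i x hx).2
  let S : Set E := ⋃ i, F i '' A
  have hSc : IsCompact S := isCompact_iUnion fun i => hAc.image_of_continuousOn (hFc i)
  -- key comparison, first kind
  have K1 : ∀ a ∈ A, ∀ b ∈ A, ∀ c ∈ A, QQ U a (T b) (R c) ∧
      (cE (a, T b, R c) = U a + U (T b) + U (R c) → a = b ∧ R c = R b) := by
    intro a ha b hb c hc
    have u0 : U a = ENNReal.ofReal (uA a) := hU 0 a ha
    have u1 : U (T b) = ENNReal.ofReal (gE e b (T b) (R b)) := by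
      have h3 : U (T₁ b) = ENNReal.ofReal (gE e b (T b) (R b)) := hU 1 b hb
      rwa [hT₁ b hb] at h3
    have u2 : U (R c) = ENNReal.ofReal (wC e (R c)) := by
      have h3 : U (R₁ c) = ENNReal.ofReal (wC e (R c)) := hU 2 c hc
      rwa [hR₁ c hc] at h3
    have hp0 := (hHb 0 a ha).1
    have hp1 := (hHb 1 b hb).1
    have hp2 := (hHb 2 c hc).1
    have hp0' : 0 ≤ uA a := hp0
    have hp1' : 0 ≤ gE e b (T b) (R b) := hp1
    have hp2' : 0 ≤ wC e (R c) := hp2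
    have hcE : cE (a, T b, R c) = ENNReal.ofReal (cR a (T b) (R c)) :=
      cE_eq (n01 a ha b hb) (n02 a ha c hc) (n12 b hb c hc)
    have hsum : U a + U (T b) + U (R c) =
        ENNReal.ofReal (uA a + gE e b (T b) (R b) + wC e (R c)) := by
      rw [u0, u1, u2, ← ENNReal.ofReal_add hp0' hp1', ← ENNReal.ofReal_add (by positivity) hp2']
    have hkey : ¬ (a = b ∧ R c = R b) →
        uA a + gE e b (T b) (R b) + wC e (R c) < cR a (T b) (R c) := by
      intro hne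
      have h1 := hmin b hb a ha c hc hne
      have h2 : gE e a (T b) (R c) = cR a (T b) (R c) - uA a - wC e (R c) := rfl
      rw [h2] at h1
      linarith
    by_cases hne : a = b ∧ R c = R b
    · refine ⟨?_, fun _ => hne⟩
      obtain ⟨rfl, hR⟩ := hne
      unfold QQ
      rw [hsum, hcE]
      apply ENNReal.ofReal_le_ofReal
      rw [hR]
      have h2 : gE e a (T a) (R a) = cR a (T a) (R a) - uA a - wC e (R a) := rfl
      rw [h2]
      linarith
    · have hlt := hkey hne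
      have hlt' : ENNReal.ofReal (uA a + gE e b (T b) (R b) + wC e (R c))
          < ENNReal.ofReal (cR a (T b) (R c)) :=
        (ENNReal.ofReal_lt_ofReal_iff_of_nonneg (by positivity)).2 hlt
      refine ⟨?_, ?_⟩
      · unfold QQ
        rw [hsum, hcE]
        exact hlt'.le
      · intro heq
        rw [hcE, hsum] at heq
        exact absurd heq (ne_of_gt hlt')
  -- invariance of the potential
  have hUρ0 : ∀ a ∈ A, U (ρ a) = U a := by
    intro a ha
    have h1 : U a = ENNReal.ofReal (uA a) := hU 0 a ha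
    have h2 : U (ρ a) = ENNReal.ofReal (uA (ρ a)) := hU 0 (ρ a) (hρA a ha)
    rw [h1, h2, uA_isom]
  have hU3 : ∀ b ∈ A, U (F 3 b) = U (T (ρ b)) := by
    intro b hb
    rw [hU 3 b hb]
    have := hU 1 (ρ b) (hρA b hb)
    have h2 : F 1 (ρ b) = T (ρ b) := hT₁ _ (hρA b hb)
    rw [h2] at this
    rw [this]
    rfl
  have hU4 : ∀ b ∈ A, U (F 4 b) = U (R (ρ b)) := by
    intro b hb
    rw [hU 4 b hb]
    have := hU 2 (ρ b) (hρA b hb)
    have h2 : F 2 (ρ b) = R (ρ b) := hR₁ _ (hρA b hb)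
    rw [h2] at this
    rw [this]
    rfl
  have hcEρ : ∀ x y z : E, cE (ρ x, ρ y, ρ z) = cE (x, y, z) := by
    intro x y z
    simp only [cE, ρ.edist_map]
  have hcK2 : ∀ a ∈ A, ∀ b ∈ A, ∀ c ∈ A,
      cE (a, F 3 b, F 4 c) = cE (ρ a, T (ρ b), R (ρ c)) := by
    intro a ha b hb c hc
    have h3 : F 3 b = ρ (T (ρ b)) := by
      show ρ (T₁ (ρ b)) = _
      rw [hT₁ _ (hρA b hb)]
    have h4 : F 4 c = ρ (R (ρ c)) := by
      show ρ (R₁ (ρ c)) = _
      rw [hR₁ _ (hρA c hc)]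
    rw [h3, h4, ← hcEρ (ρ a) (T (ρ b)) (R (ρ c)), hρ]
  have K2 : ∀ a ∈ A, ∀ b ∈ A, ∀ c ∈ A, QQ U a (F 3 b) (F 4 c) ∧
      (cE (a, F 3 b, F 4 c) = U a + U (F 3 b) + U (F 4 c) → a = b ∧ R (ρ c) = R (ρ b)) := by
    intro a ha b hb c hc
    have h1 := K1 (ρ a) (hρA a ha) (ρ b) (hρA b hb) (ρ c) (hρA c hc)
    unfold QQ at h1 ⊢
    rw [hcK2 a ha b hb c hc, hU3 b hb, hU4 c hc, ← hUρ0 a ha]
    refine ⟨h1.1, fun h => ?_⟩
    obtain ⟨h2, h3⟩ := h1.2 h
    exact ⟨ρ.injective h2, h3⟩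
  have hF1 : ∀ b ∈ A, F 1 b = T b := fun b hb => hT₁ b hb
  have hF2 : ∀ b ∈ A, F 2 b = R b := fun b hb => hR₁ b hb
  have hF0 : ∀ b, F 0 b = b := fun b => rfl
  -- general comparison
  have K3 : ∀ i j k, ∀ a ∈ A, ∀ b ∈ A, ∀ c ∈ A, Good i j k = true →
      QQ U (F i a) (F j b) (F k c) := by
    intro i j k a ha b hb c hc hg
    simp only [Good, List.mem_cons, Prod.mk.injEq, List.not_mem_nil, or_false,
      decide_eq_true_eq] at hg
    rcases hg with ⟨rfl, rfl, rfl⟩ | ⟨rfl, rfl, rfl⟩ | ⟨rfl, rfl, rfl⟩ | ⟨rfl, rfl, rfl⟩ |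
      ⟨rfl, rfl, rfl⟩ | ⟨rfl, rfl, rfl⟩ | ⟨rfl, rfl, rfl⟩ | ⟨rfl, rfl, rfl⟩ | ⟨rfl, rfl, rfl⟩ |
      ⟨rfl, rfl, rfl⟩ | ⟨rfl, rfl, rfl⟩ | ⟨rfl, rfl, rfl⟩
    · rw [hF0, hF1 b hb, hF2 c hc]; exact (K1 a ha b hb c hc).1
    · rw [hF0, hF2 b hb, hF1 c hc]; exact (K1 a ha c hc b hb).1.swap23
    · rw [hF0, hF1 a ha, hF2 c hc]; exact (K1 b hb a ha c hc).1.swap12
    · rw [hF0, hF1 a ha, hF2 b hb]; exact (K1 c hc a ha b hb).1.swap12.swap23
    · rw [hF0, hF2 a ha, hF1 c hc]; exact (K1 b hb c hc a ha).1.swap23.swap12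
    · rw [hF0, hF2 a ha, hF1 b hb]; exact (K1 c hc b hb a ha).1.swap23.swap12.swap23
    · rw [hF0]; exact (K2 a ha b hb c hc).1
    · rw [hF0]; exact (K2 a ha c hc b hb).1.swap23
    · rw [hF0]; exact (K2 b hb a ha c hc).1.swap12
    · rw [hF0]; exact (K2 c hc a ha b hb).1.swap12.swap23
    · rw [hF0]; exact (K2 b hb c hc a ha).1.swap23.swap12
    · rw [hF0]; exact (K2 c hc b hb a ha).1.swap23.swap12.swap23
  let f : Fin 4 → E → E := fun k => F k.succ
  have hf0 : ∀ x ∈ A, f 0 x = T x := hF1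
  have hf1 : ∀ x ∈ A, f 1 x = R x := hF2
  refine ⟨δ, max m 1, f, S, U, hδ, by positivity, hUrm.ennreal_ofReal, ?_, hSc, ?_,
    fun k => hFm _, ?_, fun k => hFanti _, ?_, ?_, ?_, ?_, ?_, ?_⟩
  · intro y
    by_cases hy : ∃ i, y ∈ F i '' A
    · obtain ⟨i, x, hx, rfl⟩ := hy
      refine (hUle i x hx).trans (ENNReal.ofReal_le_ofReal ?_)
      have : Kt i ≤ 2000 := by
        revert i; decide
      have h2 : (Kt i : ℝ) ≤ 2000 := by exact_mod_cast this
      linarith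
    · push Not at hy
      show ENNReal.ofReal (Ur y) ≤ _
      rw [hUr0 y hy, ENNReal.ofReal_zero]
      exact zero_le
  · intro x hx
    exact mem_iUnion.2 ⟨0, x, hx, rfl⟩
  · intro k x hx
    exact mem_iUnion.2 ⟨k.succ, x, hx, rfl⟩
  · intro k l hkl x hx x' hx'
    exact hsep _ _ (fun h => hkl (Fin.succ_injective _ h)) x hx x' hx'
  · intro k x hx hmem
    exact hsep k.succ 0 (Fin.succ_ne_zero k) x hx (F k.succ x) hmem rfl
  · intro x hx y hy z hz
    obtain ⟨i, a, ha, rfl⟩ := mem_iUnion.1 hx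
    obtain ⟨j, b, hb, rfl⟩ := mem_iUnion.1 hy
    obtain ⟨k, c, hc, rfl⟩ := mem_iUnion.1 hz
    by_cases hg : Good i j k = true
    · exact K3 i j k a ha b hb c hc hg
    · rw [Bool.not_eq_true] at hg
      exact (cE_gt_of_not_good he he' hort hg (hFb i a ha) (hFb j b hb) (hFb k c hc)
        (hUle i a ha) (hUle j b hb) (hUle k c hc)).le
  · intro x hx
    rw [hf0 x hx, hf1 x hx]
    have u0 : U x = ENNReal.ofReal (uA x) := hU 0 x hx
    have u1 : U (T x) = ENNReal.ofReal (gE e x (T x) (R x)) := by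
      have h3 : U (T₁ x) = ENNReal.ofReal (gE e x (T x) (R x)) := hU 1 x hx
      rwa [hT₁ x hx] at h3
    have u2 : U (R x) = ENNReal.ofReal (wC e (R x)) := by
      have h3 : U (R₁ x) = ENNReal.ofReal (wC e (R x)) := hU 2 x hx
      rwa [hR₁ x hx] at h3
    have hp0' : 0 ≤ uA x := (hHb 0 x hx).1
    have hp1' : 0 ≤ gE e x (T x) (R x) := (hHb 1 x hx).1
    have hp2' : 0 ≤ wC e (R x) := (hHb 2 x hx).1
    rw [cE_eq (n01 x hx x hx) (n02 x hx x hx) (n12 x hx x hx), u0, u1, u2,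
      ← ENNReal.ofReal_add hp0' hp1', ← ENNReal.ofReal_add (by positivity) hp2']
    congr 1
    have h2 : gE e x (T x) (R x) = cR x (T x) (R x) - uA x - wC e (R x) := rfl
    rw [h2]
    ring
  · intro x hx
    have hx' := hρA x hx
    show cE (x, F 3 x, F 4 x) = U x + U (F 3 x) + U (F 4 x)
    rw [hcK2 x hx x hx x hx, hU3 x hx, hU4 x hx, ← hUρ0 x hx]
    have u0 : U (ρ x) = ENNReal.ofReal (uA (ρ x)) := hU 0 _ hx'
    have u1 : U (T (ρ x)) = ENNReal.ofReal (gE e (ρ x) (T (ρ x)) (R (ρ x))) := by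
      have h3 : U (T₁ (ρ x)) = ENNReal.ofReal (gE e (ρ x) (T (ρ x)) (R (ρ x))) := hU 1 _ hx'
      rwa [hT₁ _ hx'] at h3
    have u2 : U (R (ρ x)) = ENNReal.ofReal (wC e (R (ρ x))) := by
      have h3 : U (R₁ (ρ x)) = ENNReal.ofReal (wC e (R (ρ x))) := hU 2 _ hx'
      rwa [hR₁ _ hx'] at h3
    have hp0' : 0 ≤ uA (ρ x) := (hHb 0 _ hx').1
    have hp1' : 0 ≤ gE e (ρ x) (T (ρ x)) (R (ρ x)) := (hHb 1 _ hx').1
    have hp2' : 0 ≤ wC e (R (ρ x)) := (hHb 2 _ hx').1
    rw [cE_eq (n01 _ hx' _ hx') (n02 _ hx' _ hx') (n12 _ hx' _ hx'), u0, u1, u2,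
      ← ENNReal.ofReal_add hp0' hp1', ← ENNReal.ofReal_add (by positivity) hp2']
    congr 1
    have h2 : gE e (ρ x) (T (ρ x)) (R (ρ x))
      = cR (ρ x) (T (ρ x)) (R (ρ x)) - uA (ρ x) - wC e (R (ρ x)) := rfl
    rw [h2]
    ring
  · intro x hx y hy z hz heq
    obtain ⟨j, b, hb, rfl⟩ := mem_iUnion.1 hy
    obtain ⟨k, c, hc, rfl⟩ := mem_iUnion.1 hz
    by_cases hg : Good 0 j k = true
    · simp only [Good, List.mem_cons, Prod.mk.injEq, List.not_mem_nil, or_false,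
        decide_eq_true_eq] at hg
      have e1 : (0 : Fin 5) ≠ 1 := by decide
      have e2 : (0 : Fin 5) ≠ 2 := by decide
      have e3 : (0 : Fin 5) ≠ 3 := by decide
      have e4 : (0 : Fin 5) ≠ 4 := by decide
      simp only [true_and, e1, e2, e3, e4, false_and, false_or, or_false] at hg
      rcases hg with ⟨rfl, rfl⟩ | ⟨rfl, rfl⟩ | ⟨rfl, rfl⟩ | ⟨rfl, rfl⟩
      · rw [hF1 b hb, hF2 c hc] at heq
        obtain ⟨rfl, _⟩ := (K1 x hx b hb c hc).2 heq
        exact ⟨0, rfl⟩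
      · rw [hF2 b hb, hF1 c hc] at heq
        have heq' : cE (x, T c, R b) = U x + U (T c) + U (R b) := by
          rw [← cE_swap23, heq]; ring
        obtain ⟨rfl, h2⟩ := (K1 x hx c hc b hb).2 heq'
        refine ⟨1, ?_⟩
        show F 2 b = F 2 x
        rw [hF2 b hb, hF2 x hx, h2]
      · obtain ⟨rfl, _⟩ := (K2 x hx b hb c hc).2 heq
        exact ⟨2, rfl⟩
      · have heq' : cE (x, F 3 c, F 4 b) = U x + U (F 3 c) + U (F 4 b) := by
          rw [← cE_swap23, heq]; ring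
        obtain ⟨rfl, h2⟩ := (K2 x hx c hc b hb).2 heq'
        refine ⟨3, ?_⟩
        show ρ (R₁ (ρ b)) = ρ (R₁ (ρ x))
        rw [hR₁ _ (hρA b hb), hR₁ _ (hρA x hx), h2]
    · rw [Bool.not_eq_true] at hg
      have hlt := cE_gt_of_not_good he he' hort hg (hFb 0 x hx) (hFb j b hb) (hFb k c hc)
        (hUle 0 x hx) (hUle j b hb) (hUle k c hc)
      exact absurd heq (ne_of_gt hlt)

end Vale.Agent.P121
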