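import Vale.Agent.P121.Force

namespace Vale.Agent.P121

open scoped RealInnerProductSpace Topology
open Filter

variable {E : Type*} [NormedAddCommGroup E] [InnerProductSpace ℝ E]

/-- the matrix `3 e eᵀ - 1` -/
noncomputable def Dm (e : E) : E →L[ℝ] E :=
  ((3 : ℝ) • innerSL ℝ e).smulRight e - ContinuousLinearMap.id ℝ E

theorem Dm_apply (e h : E) : Dm e h = (3 * ⟪e, h⟫) • e - h := by
  simp [Dm]

theorem kf'_e {e : E} (he : ‖e‖ = 1) : kf' e = -Dm e := by
  ext h
  simp [kf'_apply, Dm_apply, he]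

theorem kf'_neg_e {e : E} (he : ‖e‖ = 1) : kf' (-e) = -Dm e := by
  ext h
  simp [kf'_apply, Dm_apply, he]

theorem kf'_two_e {e : E} (he : ‖e‖ = 1) : kf' ((2 : ℝ) • e) = -((1 / 8 : ℝ) • Dm e) := by
  ext h
  simp only [kf'_apply, norm_smul, he, inner_smul_left, neg_apply,
    smul_apply, Dm_apply, smul_sub, smul_smul]
  norm_num
  congr 1
  ring_nf

/-- the residual force at a configuration -/
noncomputable def Gf (e : E) (p : E × E × E) : E × E :=
  (-(kf (p.1 - p.2.1)) - kf (p.1 - p.2.2) + (4 : ℝ) • p.1,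
   kf (p.1 - p.2.2) + kf (p.2.1 - p.2.2) + (4 : ℝ) • (p.2.2 + (11 / 16 : ℝ) • e))

/-- derivative of the residual force at the centre `(0, e, -e)` -/
noncomputable def Lf (e : E) : (E × E × E) →L[ℝ] (E × E) :=
  let P1 : (E × E × E) →L[ℝ] E := ContinuousLinearMap.fst ℝ E (E × E)
  let P2 : (E × E × E) →L[ℝ] E :=
    (ContinuousLinearMap.fst ℝ E E).comp (ContinuousLinearMap.snd ℝ E (E × E))
  let P3 : (E × E × E) →L[ℝ] E :=
    (ContinuousLinearMap.snd ℝ E E).comp (ContinuousLinearMap.snd ℝ E (E × E))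
  ((Dm e).comp (P1 - P2) + (Dm e).comp (P1 - P3) + (4 : ℝ) • P1).prod
    (-((Dm e).comp (P1 - P3)) - (1 / 8 : ℝ) • ((Dm e).comp (P2 - P3)) + (4 : ℝ) • P3)

theorem Lf_apply (e : E) (h : E × E × E) :
    Lf e h = (Dm e (h.1 - h.2.1) + Dm e (h.1 - h.2.2) + (4 : ℝ) • h.1,
      -(Dm e (h.1 - h.2.2)) - (1 / 8 : ℝ) • Dm e (h.2.1 - h.2.2) + (4 : ℝ) • h.2.2) := by
  simp [Lf]

theorem Gf_centre {e : E} (he : ‖e‖ = 1) : Gf e (0, e, -e) = 0 := by
  have h2 : e - -e = (2 : ℝ) • e := by rw [two_smul]; abel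
  simp only [Gf, kf, h2, norm_smul, zero_sub, sub_neg_eq_add, zero_add, norm_neg, he]
  ext
  · simp
  · simp only [Prod.snd_zero]
    norm_num
    simp only [smul_smul]
    have : e + ((1 / 8 : ℝ) * 2) • e + (-((4 : ℝ) • e) + ((4 : ℝ) * (11 / 16)) • e) = 0 := by
      module
    convert this using 2

theorem hasStrictFDerivAt_Gf {e : E} (he : ‖e‖ = 1) :
    HasStrictFDerivAt (Gf e) (Lf e) (0, e, -e) := by
  have hne : e ≠ 0 := by
    intro h; simp [h] at he
  have h2 : e - -e = (2 : ℝ) • e := by rw [two_smul]; abel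
  let P1 : (E × E × E) →L[ℝ] E := ContinuousLinearMap.fst ℝ E (E × E)
  let P2 : (E × E × E) →L[ℝ] E :=
    (ContinuousLinearMap.fst ℝ E E).comp (ContinuousLinearMap.snd ℝ E (E × E))
  let P3 : (E × E × E) →L[ℝ] E :=
    (ContinuousLinearMap.snd ℝ E E).comp (ContinuousLinearMap.snd ℝ E (E × E))
  have k1 : HasStrictFDerivAt (fun p : E × E × E => kf (p.1 - p.2.1))
      ((kf' (-e)).comp (P1 - P2)) (0, e, -e) := by
    have hk : HasStrictFDerivAt (kf : E → E) (kf' (-e)) ((P1 - P2) (0, e, -e)) := by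
      have : (P1 - P2) (0, e, -e) = -e := by simp [P1, P2]
      rw [this]
      exact hasStrictFDerivAt_kf (neg_ne_zero.2 hne)
    exact hk.comp (0, e, -e) (P1 - P2).hasStrictFDerivAt
  have k2 : HasStrictFDerivAt (fun p : E × E × E => kf (p.1 - p.2.2))
      ((kf' e).comp (P1 - P3)) (0, e, -e) := by
    have hk : HasStrictFDerivAt (kf : E → E) (kf' e) ((P1 - P3) (0, e, -e)) := by
      have : (P1 - P3) (0, e, -e) = e := by simp [P1, P3]
      rw [this]
      exact hasStrictFDerivAt_kf hne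
    exact hk.comp (0, e, -e) (P1 - P3).hasStrictFDerivAt
  have k3 : HasStrictFDerivAt (fun p : E × E × E => kf (p.2.1 - p.2.2))
      ((kf' ((2 : ℝ) • e)).comp (P2 - P3)) (0, e, -e) := by
    have hk : HasStrictFDerivAt (kf : E → E) (kf' ((2 : ℝ) • e)) ((P2 - P3) (0, e, -e)) := by
      have : (P2 - P3) (0, e, -e) = (2 : ℝ) • e := by simp [P2, P3, ← h2]
      rw [this]
      exact hasStrictFDerivAt_kf (smul_ne_zero two_ne_zero hne)
    exact hk.comp (0, e, -e) (P2 - P3).hasStrictFDerivAt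
  have m1 : HasStrictFDerivAt (fun p : E × E × E => (4 : ℝ) • p.1) ((4 : ℝ) • P1) (0, e, -e) :=
    ((4 : ℝ) • P1).hasStrictFDerivAt
  have m3 : HasStrictFDerivAt (fun p : E × E × E => (4 : ℝ) • (p.2.2 + (11 / 16 : ℝ) • e))
      ((4 : ℝ) • P3) (0, e, -e) := by
    have := (P3.hasStrictFDerivAt (x := ((0 : E), e, -e))).add_const ((11 / 16 : ℝ) • e)
    exact this.const_smul (4 : ℝ)
  have A := ((k1.neg.sub k2).add m1)
  have B := ((k2.add k3).add m3)
  have C := A.prodMk B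
  refine C.congr_fderiv ?_
  rw [kf'_e he, kf'_neg_e he, kf'_two_e he]
  ext h <;> simp [Lf_apply, P1, P2, P3, sub_eq_add_neg]

end Vale.Agent.P121
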