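import Vale.Agent.P121.Local1

namespace Vale.Agent.P121

open scoped RealInnerProductSpace Topology
open Filter

variable {E : Type*} [NormedAddCommGroup E] [InnerProductSpace ℝ E]

theorem inner_Dm (e x y : E) : ⟪Dm e x, y⟫ = 3 * ⟪e, x⟫ * ⟪e, y⟫ - ⟪x, y⟫ := by
  rw [Dm_apply, inner_sub_left, inner_smul_left]
  simp

theorem inner_e_Dm {e : E} (he : ‖e‖ = 1) (x : E) : ⟪e, Dm e x⟫ = 2 * ⟪e, x⟫ := by
  rw [real_inner_comm, inner_Dm, real_inner_self_eq_norm_sq, he, real_inner_comm]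
  ring

theorem Dm_of_inner_eq_zero {e x : E} (h : ⟪e, x⟫ = 0) : Dm e x = -x := by
  simp [Dm_apply, h]

theorem Dm_add_smul_eq_zero {e : E} (he : ‖e‖ = 1) {c : ℝ} (h1 : c ≠ 1) (h2 : c ≠ -2) {x : E}
    (hx : Dm e x + c • x = 0) : x = 0 := by
  have ha : ⟪e, x⟫ = 0 := by
    have := congrArg (fun y => ⟪e, y⟫) hx
    simp only [inner_add_right, inner_e_Dm he, inner_smul_right, inner_zero_right] at this
    have h3 : (2 + c) * ⟪e, x⟫ = 0 := by linarith
    rcases mul_eq_zero.1 h3 with h | h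
    · exact absurd (by linarith) h2
    · exact h
  rw [Dm_of_inner_eq_zero ha] at hx
  have h3 : (c - 1) • x = 0 := by
    rw [sub_smul, one_smul]; rw [← hx]; abel
  rcases smul_eq_zero.1 h3 with h | h
  · exact absurd (by linarith) h1
  · exact h

theorem Lf_inj1 {e : E} (he : ‖e‖ = 1) {h : E × E × E} (h0 : Lf e h = 0) (h1 : h.1 = 0) :
    h = 0 := by
  obtain ⟨x, y, z⟩ := h
  rw [Lf_apply, Prod.mk_eq_zero] at h0
  simp only at h0 h1
  subst h1
  obtain ⟨ha, hb⟩ := h0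
  have hs : y + z = 0 := by
    apply Dm_add_smul_eq_zero he (c := 0) (by norm_num) (by norm_num)
    simp only [zero_sub, map_neg, smul_zero, add_zero, zero_smul, map_add] at ha ⊢
    rw [← neg_eq_zero, ← ha]; abel
  have hy : y = -z := eq_neg_of_add_eq_zero_left hs
  subst hy
  have hz : z = 0 := by
    apply Dm_add_smul_eq_zero he (c := 16 / 5) (by norm_num) (by norm_num)
    simp only [map_sub, map_neg, zero_sub] at hb
    have : (4 / 5 : ℝ) • (- -Dm e z - (1 / 8 : ℝ) • (-Dm e z - Dm e z) + (4 : ℝ) • z) = 0 := by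
      rw [hb, smul_zero]
    rw [← this]
    module
  simp [hz]

theorem Lf_inj2 {e : E} (he : ‖e‖ = 1) {h : E × E × E} (h0 : Lf e h = 0) (h1 : h.2.1 = 0) :
    h = 0 := by
  obtain ⟨x, y, z⟩ := h
  rw [Lf_apply, Prod.mk_eq_zero] at h0
  simp only at h0 h1
  subst h1
  obtain ⟨ha, hb⟩ := h0
  have ea := congrArg (fun y => ⟪e, y⟫) ha
  have eb := congrArg (fun y => ⟪e, y⟫) hb
  simp only [inner_add_right, inner_sub_right, inner_neg_right, inner_e_Dm he, inner_smul_right,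
    inner_zero_right, sub_zero, zero_sub] at ea eb
  have h3 : ⟪e, x⟫ = 0 := by linarith
  have h4 : ⟪e, z⟫ = 0 := by linarith
  simp only [map_sub, map_zero, Dm_of_inner_eq_zero h3, Dm_of_inner_eq_zero h4] at ha hb
  have hz : z = -((2 : ℝ) • x) := by
    have : z - -((2 : ℝ) • x) = -x - 0 + (-x - -z) + (4 : ℝ) • x := by module
    rw [ha] at this
    exact sub_eq_zero.1 this
  subst hz
  have hx : x = 0 := by
    have : (-(19 / 4) : ℝ) • x = 0 := by
      rw [← hb]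
      module
    rcases smul_eq_zero.1 this with h | h
    · norm_num at h
    · exact h
  simp [hx]

theorem Lf_inj3 {e : E} (he : ‖e‖ = 1) {h : E × E × E} (h0 : Lf e h = 0) (h1 : h.2.2 = 0) :
    h = 0 := by
  obtain ⟨x, y, z⟩ := h
  rw [Lf_apply, Prod.mk_eq_zero] at h0
  simp only at h0 h1
  subst h1
  obtain ⟨ha, hb⟩ := h0
  have hs : (8 : ℝ) • x + y = 0 := by
    apply Dm_add_smul_eq_zero he (c := 0) (by norm_num) (by norm_num)
    simp only [sub_zero, smul_zero, add_zero, zero_smul, map_add, map_smul] at hb ⊢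
    have : (-8 : ℝ) • (-Dm e x - (1 / 8 : ℝ) • Dm e y) = 0 := by rw [hb, smul_zero]
    rw [← this]
    module
  have hy : y = -((8 : ℝ) • x) := by
    rw [eq_neg_iff_add_eq_zero, add_comm]; exact hs
  subst hy
  have hx : x = 0 := by
    apply Dm_add_smul_eq_zero he (c := 2 / 5) (by norm_num) (by norm_num)
    simp only [map_sub, map_neg, sub_zero, map_smul] at ha
    have : (1 / 10 : ℝ) • (Dm e x - -((8 : ℝ) • Dm e x) + Dm e x + (4 : ℝ) • x) = 0 := by
      rw [ha, smul_zero]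
    rw [← this]
    module
  simp [hx]

theorem Lf_pos {e : E} (x z : E) :
    ‖x‖ ^ 2 + ‖z‖ ^ 2 ≤ ⟪(Lf e (x, 0, z)).1, x⟫ + ⟪(Lf e (x, 0, z)).2, z⟫ := by
  rw [Lf_apply]
  simp only [inner_add_left, inner_sub_left, inner_neg_left, inner_Dm, inner_smul_left, sub_zero,
    zero_sub, inner_sub_right, inner_neg_right, real_inner_self_eq_norm_sq]
  have h1 : ⟪z, x⟫ = ⟪x, z⟫ := real_inner_comm _ _
  rw [h1]
  have h2 : 0 ≤ ‖x‖ ^ 2 + 2 * ⟪x, z⟫ + ‖z‖ ^ 2 := by
    rw [← norm_add_sq_real]; positivity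
  simp only [conj_trivial]
  nlinarith [sq_nonneg (⟪e, x⟫ - ⟪e, z⟫ / 2), sq_nonneg ⟪e, z⟫, sq_nonneg ‖x‖, sq_nonneg ‖z‖]

/-- quantitative injectivity near a point of strict differentiability with injective derivative -/
theorem exists_antilip {P Q : Type*} [NormedAddCommGroup P] [NormedSpace ℝ P]
    [FiniteDimensional ℝ P] [NormedAddCommGroup Q] [NormedSpace ℝ Q] {f : P → Q} {L : P →L[ℝ] Q}
    {a : P} (hf : HasStrictFDerivAt f L a) (hL : ∀ h, L h = 0 → h = 0) :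
    ∃ M : ℝ, 0 < M ∧ ∃ δ : ℝ, 0 < δ ∧ ∀ p ∈ Metric.ball a δ, ∀ q ∈ Metric.ball a δ,
      ‖p - q‖ ≤ M * ‖f p - f q‖ := by
  obtain ⟨K, hK, hKL⟩ := LinearMap.exists_antilipschitzWith (L : P →ₗ[ℝ] Q)
    (LinearMap.ker_eq_bot'.2 hL)
  have hK' : ∀ h, ‖h‖ ≤ K * ‖L h‖ := by
    intro h
    have := hKL.le_mul_dist h 0
    simpa using this
  have hc : (0 : ℝ) < 1 / (2 * K) := by positivity
  obtain ⟨s, hs, hsf⟩ := hf.approximates_deriv_on_nhds (c := ⟨1 / (2 * K), hc.le⟩)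
    (Or.inr (by exact_mod_cast hc))
  obtain ⟨δ, hδ, hball⟩ := Metric.mem_nhds_iff.1 hs
  refine ⟨2 * K, by positivity, δ, hδ, fun p hp q hq => ?_⟩
  have h1 := hsf _ (hball hp) _ (hball hq)
  have h2 := hK' (p - q)
  have h1' : ‖f p - f q - L (p - q)‖ ≤ 1 / (2 * K) * ‖p - q‖ := h1
  have h3 : ‖L (p - q)‖ ≤ ‖f p - f q‖ + 1 / (2 * K) * ‖p - q‖ := by
    have h4 : ‖L (p - q)‖ ≤ ‖f p - f q‖ + ‖f p - f q - L (p - q)‖ := by
      have := norm_sub_le (f p - f q) (f p - f q - L (p - q))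
      simpa using this
    linarith
  have hKpos : (0 : ℝ) < K := by exact_mod_cast hK
  have h5 : (K : ℝ) * ‖L (p - q)‖ ≤ K * ‖f p - f q‖ + 1 / 2 * ‖p - q‖ := by
    calc (K : ℝ) * ‖L (p - q)‖ ≤ K * (‖f p - f q‖ + 1 / (2 * K) * ‖p - q‖) := by gcongr
      _ = K * ‖f p - f q‖ + 1 / 2 * ‖p - q‖ := by field_simp
  linarith

end Vale.Agent.P121
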