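import Vale.Agent.P121.Local2

namespace Vale.Agent.P121

open scoped RealInnerProductSpace Topology
open Filter

variable {E : Type*} [NormedAddCommGroup E] [InnerProductSpace ℝ E]

/-- the Coulomb energy, real valued -/
noncomputable def cR (x y z : E) : ℝ := ‖x - y‖⁻¹ + ‖x - z‖⁻¹ + ‖y - z‖⁻¹

/-- potential on the central cluster -/
noncomputable def uA (x : E) : ℝ := 2 - 2 * ‖x‖ ^ 2

/-- potential on the cluster near `-e` -/
noncomputable def wC (e z : E) : ℝ := 57 / 128 - 2 * ‖z + (11 / 16 : ℝ) • e‖ ^ 2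

/-- the reduced energy -/
noncomputable def gE (e x y z : E) : ℝ := cR x y z - uA x - wC e z

theorem hasDerivAt_line (x h : E) (s : ℝ) : HasDerivAt (fun t : ℝ => x + t • h) h s := by
  simpa using ((hasDerivAt_id s).smul_const h).const_add x

theorem hasDerivAt_inv_norm {f : ℝ → E} {f' : E} {s : ℝ} (hf : HasDerivAt f f' s)
    (h0 : f s ≠ 0) : HasDerivAt (fun t => ‖f t‖⁻¹) (-⟪kf (f s), f'⟫) s := by
  have := (hasFDerivAt_inv_norm h0).comp_hasDerivAt s hf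
  exact this.congr_deriv (by simp)

theorem hasDerivAt_gE (e y : E) {x z h1 h3 : E} {s : ℝ} (hxy : x + s • h1 - y ≠ 0)
    (hxz : (x + s • h1) - (z + s • h3) ≠ 0) (hyz : y - (z + s • h3) ≠ 0) :
    HasDerivAt (fun t : ℝ => gE e (x + t • h1) y (z + t • h3))
      (⟪(Gf e (x + s • h1, y, z + s • h3)).1, h1⟫
        + ⟪(Gf e (x + s • h1, y, z + s • h3)).2, h3⟫) s := by
  have l1 := hasDerivAt_line x h1 s
  have l3 := hasDerivAt_line z h3 s
  have d1 := hasDerivAt_inv_norm (l1.sub_const y) hxy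
  have d2 : HasDerivAt (fun t : ℝ => ‖(x + t • h1) - (z + t • h3)‖⁻¹)
      (-⟪kf ((x + s • h1) - (z + s • h3)), h1 - h3⟫) s :=
    hasDerivAt_inv_norm (f := fun t : ℝ => (x + t • h1) - (z + t • h3)) (l1.sub l3) hxz
  have d3 := hasDerivAt_inv_norm (l3.const_sub y) hyz
  have q1 : HasDerivAt (fun t : ℝ => uA (x + t • h1)) _ s :=
    ((l1.norm_sq).const_mul 2).const_sub 2
  have q3 : HasDerivAt (fun t : ℝ => wC e (z + t • h3)) _ s :=
    (((l3.add_const ((11 / 16 : ℝ) • e)).norm_sq).const_mul 2).const_sub (57 / 128)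
  have D := (((d1.add d2).add d3).sub q1).sub q3
  refine HasDerivAt.congr_deriv D ?_
  simp only [Gf, inner_add_left, inner_sub_left, inner_neg_left, inner_smul_left, inner_neg_right,
    inner_sub_right, conj_trivial]
  ring

/-- strict minimality of critical configurations near the centre -/
theorem exists_strict_min {e : E} (he : ‖e‖ = 1) :
    ∃ δ : ℝ, 0 < δ ∧ ∀ x₀ ∈ Metric.ball (0 : E) δ, ∀ y ∈ Metric.ball e δ,
      ∀ z₀ ∈ Metric.ball (-e) δ, Gf e (x₀, y, z₀) = 0 →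
      ∀ x ∈ Metric.ball (0 : E) δ, ∀ z ∈ Metric.ball (-e) δ, ¬ (x = x₀ ∧ z = z₀) →
        gE e x₀ y z₀ < gE e x y z := by
  have hne : e ≠ 0 := by
    intro h; simp [h] at he
  have hc : (0 : ℝ) < 1 / 4 := by norm_num
  obtain ⟨s, hs, hsf⟩ := (hasStrictFDerivAt_Gf he).approximates_deriv_on_nhds
    (c := ⟨1 / 4, hc.le⟩) (Or.inr (by exact_mod_cast hc))
  obtain ⟨δ₁, hδ₁, hball⟩ := Metric.mem_nhds_iff.1 hs
  refine ⟨min δ₁ (1 / 4), by positivity, ?_⟩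
  intro x₀ hx₀ y hy z₀ hz₀ hG x hx z hz hne'
  set δ := min δ₁ (1 / 4) with hδ
  have hδ4 : δ ≤ 1 / 4 := min_le_right _ _
  have hδ1 : δ ≤ δ₁ := min_le_left _ _
  -- membership in the neighbourhood
  have hmem : ∀ a ∈ Metric.ball (0 : E) δ, ∀ b ∈ Metric.ball (-e) δ,
      ((a, y, b) : E × E × E) ∈ s := by
    intro a ha b hb
    apply hball
    rw [← ball_prod_same, ← ball_prod_same]
    exact ⟨Metric.ball_subset_ball hδ1 ha, Metric.ball_subset_ball hδ1 hy,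
      Metric.ball_subset_ball hδ1 hb⟩
  have hsep : ∀ a ∈ Metric.ball (0 : E) δ, ∀ b ∈ Metric.ball (-e) δ,
      a - y ≠ 0 ∧ a - b ≠ 0 ∧ y - b ≠ 0 := by
    intro a ha b hb
    rw [Metric.mem_ball, dist_eq_norm] at ha hb hy
    rw [sub_zero] at ha
    refine ⟨fun h => ?_, fun h => ?_, fun h => ?_⟩
    · have h1 : e = a - (y - e) := by rw [sub_eq_zero.1 h]; abel
      have h2 := norm_sub_le a (y - e)
      rw [← h1, he] at h2
      linarith
    · have h1 : e = (b - -e) - a := by rw [sub_eq_zero.1 h]; abel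
      have h2 := norm_sub_le (b - -e) a
      rw [← h1, he] at h2
      linarith
    · have h1 : (2 : ℝ) • e = (b - -e) - (y - e) := by rw [sub_eq_zero.1 h, two_smul]; abel
      have h2 := norm_sub_le (b - -e) (y - e)
      rw [← h1, norm_smul, he] at h2
      norm_num at h2
      rw [sub_neg_eq_add] at hb
      linarith
  set h1 := x - x₀ with hh1
  set h3 := z - z₀ with hh3
  have hseg1 : ∀ t ∈ Set.Icc (0 : ℝ) 1, x₀ + t • h1 ∈ Metric.ball (0 : E) δ := by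
    intro t ht
    exact (convex_ball (0 : E) δ).add_smul_sub_mem hx₀ hx ht
  have hseg3 : ∀ t ∈ Set.Icc (0 : ℝ) 1, z₀ + t • h3 ∈ Metric.ball (-e) δ := by
    intro t ht
    exact (convex_ball (-e) δ).add_smul_sub_mem hz₀ hz ht
  let φ : ℝ → ℝ := fun t => gE e (x₀ + t • h1) y (z₀ + t • h3)
  have hder : ∀ t ∈ Set.Icc (0 : ℝ) 1, HasDerivAt φ
      (⟪(Gf e (x₀ + t • h1, y, z₀ + t • h3)).1, h1⟫
        + ⟪(Gf e (x₀ + t • h1, y, z₀ + t • h3)).2, h3⟫) t := by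
    intro t ht
    obtain ⟨a1, a2, a3⟩ := hsep _ (hseg1 t ht) _ (hseg3 t ht)
    exact hasDerivAt_gE e y a1 a2 a3
  have hhpos : 0 < ‖h1‖ ^ 2 + ‖h3‖ ^ 2 := by
    by_contra hcon
    have h1z : ‖h1‖ ^ 2 = 0 := by nlinarith [sq_nonneg ‖h1‖, sq_nonneg ‖h3‖]
    have h3z : ‖h3‖ ^ 2 = 0 := by nlinarith [sq_nonneg ‖h1‖, sq_nonneg ‖h3‖]
    apply hne'
    constructor
    · exact sub_eq_zero.1 (norm_eq_zero.1 (pow_eq_zero_iff (two_ne_zero) |>.1 h1z))
    · exact sub_eq_zero.1 (norm_eq_zero.1 (pow_eq_zero_iff (two_ne_zero) |>.1 h3z))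
  have hpos : ∀ t ∈ Set.Ioo (0 : ℝ) 1, 0 < ⟪(Gf e (x₀ + t • h1, y, z₀ + t • h3)).1, h1⟫
        + ⟪(Gf e (x₀ + t • h1, y, z₀ + t • h3)).2, h3⟫ := by
    intro t ht
    have htI : t ∈ Set.Icc (0 : ℝ) 1 := ⟨ht.1.le, ht.2.le⟩
    have ht0 : 0 < t := ht.1
    have e1 := hsf _ (hmem _ (hseg1 t htI) _ (hseg3 t htI)) _ (hmem _ hx₀ _ hz₀)
    have e1' : ‖Gf e (x₀ + t • h1, y, z₀ + t • h3) - Gf e (x₀, y, z₀)
        - Lf e ((x₀ + t • h1, y, z₀ + t • h3) - (x₀, y, z₀))‖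
        ≤ 1 / 4 * ‖((x₀ + t • h1, y, z₀ + t • h3) : E × E × E) - (x₀, y, z₀)‖ := e1
    have e2 : ((x₀ + t • h1, y, z₀ + t • h3) : E × E × E) - (x₀, y, z₀) = t • (h1, 0, h3) := by
      simp
    rw [hG, sub_zero, e2, map_smul, norm_smul] at e1'
    set g := Gf e (x₀ + t • h1, y, z₀ + t • h3) with hg
    set l := Lf e (h1, 0, h3) with hl
    have hLpos := Lf_pos (e := e) h1 h3
    rw [← hl] at hLpos
    have nrm : ‖((h1, 0, h3) : E × E × E)‖ ≤ ‖h1‖ + ‖h3‖ := by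
      rw [Prod.norm_def, Prod.norm_def]
      simp only [norm_zero]
      have := norm_nonneg h1
      have := norm_nonneg h3
      apply max_le <;> [linarith; apply max_le <;> linarith]
    have hb1 : ‖(g - t • l).1‖ ≤ 1 / 4 * (t * (‖h1‖ + ‖h3‖)) := by
      refine (norm_fst_le _).trans (e1'.trans ?_)
      rw [Real.norm_of_nonneg ht0.le]
      gcongr
    have hb2 : ‖(g - t • l).2‖ ≤ 1 / 4 * (t * (‖h1‖ + ‖h3‖)) := by
      refine (norm_snd_le _).trans (e1'.trans ?_)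
      rw [Real.norm_of_nonneg ht0.le]
      gcongr
    have i1 : ⟪g.1, h1⟫ = t * ⟪l.1, h1⟫ + ⟪(g - t • l).1, h1⟫ := by
      simp [inner_sub_left, inner_smul_left]
    have i3 : ⟪g.2, h3⟫ = t * ⟪l.2, h3⟫ + ⟪(g - t • l).2, h3⟫ := by
      simp [inner_sub_left, inner_smul_left]
    have c1 := (abs_le.1 (abs_real_inner_le_norm (g - t • l).1 h1)).1
    have c3 := (abs_le.1 (abs_real_inner_le_norm (g - t • l).2 h3)).1
    have c1' : ‖(g - t • l).1‖ * ‖h1‖ ≤ 1 / 4 * (t * (‖h1‖ + ‖h3‖)) * ‖h1‖ := by gcongr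
    have c3' : ‖(g - t • l).2‖ * ‖h3‖ ≤ 1 / 4 * (t * (‖h1‖ + ‖h3‖)) * ‖h3‖ := by gcongr
    have key : t * (‖h1‖ ^ 2 + ‖h3‖ ^ 2) ≤ t * (⟪l.1, h1⟫ + ⟪l.2, h3⟫) := by gcongr
    have key2 : 1 / 4 * (t * (‖h1‖ + ‖h3‖)) * ‖h1‖ + 1 / 4 * (t * (‖h1‖ + ‖h3‖)) * ‖h3‖
        ≤ 1 / 2 * (t * (‖h1‖ ^ 2 + ‖h3‖ ^ 2)) := by
      have : (‖h1‖ + ‖h3‖) ^ 2 ≤ 2 * (‖h1‖ ^ 2 + ‖h3‖ ^ 2) := by
        nlinarith [sq_nonneg (‖h1‖ - ‖h3‖)]
      nlinarith
    have hfin : 0 < t * (‖h1‖ ^ 2 + ‖h3‖ ^ 2) := by positivity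
    rw [i1, i3]
    linarith
  have hmono : StrictMonoOn φ (Set.Icc (0 : ℝ) 1) := by
    apply strictMonoOn_of_deriv_pos (convex_Icc 0 1)
    · exact fun t ht => (hder t ht).continuousAt.continuousWithinAt
    · intro t ht
      rw [interior_Icc] at ht
      rw [(hder t ⟨ht.1.le, ht.2.le⟩).deriv]
      exact hpos t ht
  have h01 := hmono (Set.left_mem_Icc.2 zero_le_one) (Set.right_mem_Icc.2 zero_le_one) zero_lt_one
  simpa [φ, hh1, hh3] using h01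

end Vale.Agent.P121
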