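import Vale.Agent.P121.Local3

namespace Vale.Agent.P121

open scoped RealInnerProductSpace Topology
open Filter

variable {E : Type*} [NormedAddCommGroup E] [InnerProductSpace ℝ E]

theorem norm_two_smul_e {e : E} (he : ‖e‖ = 1) : ‖(2 : ℝ) • e‖ = 2 := by
  rw [norm_smul, he]; norm_num

theorem gE_centre {e : E} (he : ‖e‖ = 1) : gE e 0 e (-e) = 1 / 4 := by
  have h2 : e - -e = (2 : ℝ) • e := by rw [two_smul]; abel
  have h3 : -e + (11 / 16 : ℝ) • e = (-(5 / 16) : ℝ) • e := by module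
  simp only [gE, cR, uA, wC, h2, h3, norm_smul, zero_sub, sub_neg_eq_add, zero_add, norm_neg, he]
  norm_num

theorem wC_centre {e : E} (he : ‖e‖ = 1) : wC e (-e) = 1 / 4 := by
  have h3 : -e + (11 / 16 : ℝ) • e = (-(5 / 16) : ℝ) • e := by module
  simp only [wC, h3, norm_smul, he]
  norm_num

theorem continuousAt_gE {e : E} (he : ‖e‖ = 1) :
    ContinuousAt (fun p : E × E × E => gE e p.1 p.2.1 p.2.2) (0, e, -e) := by
  have hne : e ≠ 0 := by
    intro h; simp [h] at he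
  have h2 : e - -e = (2 : ℝ) • e := by rw [two_smul]; abel
  unfold gE cR uA wC
  have a1 : ContinuousAt (fun p : E × E × E => ‖p.1 - p.2.1‖⁻¹) (0, e, -e) := by
    apply ContinuousAt.inv₀ (by fun_prop)
    simpa using hne
  have a2 : ContinuousAt (fun p : E × E × E => ‖p.1 - p.2.2‖⁻¹) (0, e, -e) := by
    apply ContinuousAt.inv₀ (by fun_prop)
    simpa using hne
  have a3 : ContinuousAt (fun p : E × E × E => ‖p.2.1 - p.2.2‖⁻¹) (0, e, -e) := by
    apply ContinuousAt.inv₀ (by fun_prop)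
    simp only [h2, norm_two_smul_e he]
    norm_num
  fun_prop

variable [FiniteDimensional ℝ E]

/-- existence of the critical configurations -/
theorem exists_critical {e : E} (he : ‖e‖ = 1) :
    ∃ T R : E → E, ContinuousAt T 0 ∧ ContinuousAt R 0 ∧ T 0 = e ∧ R 0 = -e ∧
      ∀ᶠ x in 𝓝 (0 : E), Gf e (x, T x, R x) = 0 := by
  let P1 : (E × E × E) →L[ℝ] E := ContinuousLinearMap.fst ℝ E (E × E)
  let L : (E × E × E) →L[ℝ] ((E × E) × E) := (Lf e).prod P1
  have hinj : Function.Injective L := by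
    rw [injective_iff_map_eq_zero]
    intro h hh
    have h1 : (Lf e h, h.1) = 0 := hh
    rw [Prod.mk_eq_zero] at h1
    exact Lf_inj1 he h1.1 h1.2
  have hdim : Module.finrank ℝ (E × E × E) = Module.finrank ℝ ((E × E) × E) := by
    simp only [Module.finrank_prod]; ring
  let Le : (E × E × E) ≃L[ℝ] ((E × E) × E) :=
    (LinearMap.linearEquivOfInjective (L : (E × E × E) →ₗ[ℝ] ((E × E) × E)) hinj
      hdim).toContinuousLinearEquiv
  have hLe : (Le : (E × E × E) →L[ℝ] ((E × E) × E)) = L := by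
    ext h <;> rfl
  let Φ : E × E × E → (E × E) × E := fun p => (Gf e p, p.1)
  have hΦ : HasStrictFDerivAt Φ (Le : (E × E × E) →L[ℝ] ((E × E) × E)) (0, e, -e) := by
    rw [hLe]
    exact (hasStrictFDerivAt_Gf he).prodMk P1.hasStrictFDerivAt
  have hΦ0 : Φ (0, e, -e) = (0, 0) := by
    simp only [Φ, Gf_centre he]
  let Ψ : (E × E) × E → E × E × E := hΦ.localInverse Φ Le (0, e, -e)
  have hΨ0 : Ψ (0, 0) = (0, e, -e) := by
    have := hΦ.localInverse_apply_image
    rwa [hΦ0] at this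
  have hΨc : ContinuousAt Ψ (0, 0) := by
    have := hΦ.localInverse_continuousAt
    rwa [hΦ0] at this
  have hri : ∀ᶠ y in 𝓝 ((0, 0) : (E × E) × E), Φ (Ψ y) = y := by
    have := hΦ.eventually_right_inverse
    rwa [hΦ0] at this
  have hι : ContinuousAt (fun x : E => ((0, x) : (E × E) × E)) 0 := by fun_prop
  have hΨι : ContinuousAt (fun x : E => Ψ (0, x)) 0 := by
    have hΨc' : ContinuousAt Ψ ((fun x : E => ((0, x) : (E × E) × E)) 0) := hΨc
    exact ContinuousAt.comp (f := fun x : E => ((0, x) : (E × E) × E)) hΨc' hι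
  refine ⟨fun x => (Ψ (0, x)).2.1, fun x => (Ψ (0, x)).2.2, ?_, ?_, ?_, ?_, ?_⟩
  · exact hΨι.snd.fst
  · exact hΨι.snd.snd
  · simp only [hΨ0]
  · simp only [hΨ0]
  · have h3 : ∀ᶠ x in 𝓝 (0 : E), Φ (Ψ (0, x)) = (0, x) := by
      have : Tendsto (fun x : E => ((0, x) : (E × E) × E)) (𝓝 0) (𝓝 (0, 0)) := hι
      exact this.eventually hri
    filter_upwards [h3] with x hx
    have h4 : Gf e (Ψ (0, x)) = 0 := congrArg Prod.fst hx
    have h5 : (Ψ (0, x)).1 = x := congrArg Prod.snd hx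
    have h6 : ((x, (Ψ (0, x)).2.1, (Ψ (0, x)).2.2) : E × E × E) = Ψ (0, x) :=
      Prod.ext h5.symm rfl
    show Gf e (x, (Ψ (0, x)).2.1, (Ψ (0, x)).2.2) = 0
    rw [h6]
    exact h4

/-- the local structure theorem -/
theorem local_main {e : E} (he : ‖e‖ = 1) :
    ∃ (T R : E → E) (δ m : ℝ), 0 < δ ∧ δ ≤ 1 / 100 ∧ 0 < m ∧
      (∀ x ∈ Metric.closedBall (0 : E) δ,
        T x ∈ Metric.closedBall e (1 / 100) ∧ R x ∈ Metric.closedBall (-e) (1 / 100)) ∧
      (∀ x ∈ Metric.closedBall (0 : E) δ, ∀ x' ∈ Metric.closedBall (0 : E) δ,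
        ‖x - x'‖ ≤ m * ‖T x - T x'‖ ∧ ‖x - x'‖ ≤ m * ‖R x - R x'‖ ∧
        ‖T x - T x'‖ ≤ m * ‖x - x'‖ ∧ ‖R x - R x'‖ ≤ m * ‖x - x'‖) ∧
      (∀ x ∈ Metric.closedBall (0 : E) δ,
        |gE e x (T x) (R x) - 1 / 4| ≤ 1 / 20 ∧ |wC e (R x) - 1 / 4| ≤ 1 / 20) ∧
      (∀ x₀ ∈ Metric.closedBall (0 : E) δ, ∀ x ∈ Metric.closedBall (0 : E) δ,
        ∀ x₁ ∈ Metric.closedBall (0 : E) δ, ¬ (x = x₀ ∧ R x₁ = R x₀) →
          gE e x₀ (T x₀) (R x₀) < gE e x (T x₀) (R x₁)) := by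
  obtain ⟨T, R, hT, hR, hT0, hR0, hG⟩ := exists_critical he
  obtain ⟨δ₁, hδ₁, hmin⟩ := exists_strict_min he
  -- antilipschitz estimates
  let P1 : (E × E × E) →L[ℝ] E := ContinuousLinearMap.fst ℝ E (E × E)
  let P2 : (E × E × E) →L[ℝ] E :=
    (ContinuousLinearMap.fst ℝ E E).comp (ContinuousLinearMap.snd ℝ E (E × E))
  let P3 : (E × E × E) →L[ℝ] E :=
    (ContinuousLinearMap.snd ℝ E E).comp (ContinuousLinearMap.snd ℝ E (E × E))
  have hGf := hasStrictFDerivAt_Gf he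
  obtain ⟨M1, hM1, r1, hr1, hA1⟩ := exists_antilip (hGf.prodMk (P1.hasStrictFDerivAt))
    (by
      intro h hh
      have h1 : (Lf e h, h.1) = 0 := hh
      rw [Prod.mk_eq_zero] at h1
      exact Lf_inj1 he h1.1 h1.2)
  obtain ⟨M2, hM2, r2, hr2, hA2⟩ := exists_antilip (hGf.prodMk (P2.hasStrictFDerivAt))
    (by
      intro h hh
      have h1 : (Lf e h, h.2.1) = 0 := hh
      rw [Prod.mk_eq_zero] at h1
      exact Lf_inj2 he h1.1 h1.2)
  obtain ⟨M3, hM3, r3, hr3, hA3⟩ := exists_antilip (hGf.prodMk (P3.hasStrictFDerivAt))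
    (by
      intro h hh
      have h1 : (Lf e h, h.2.2) = 0 := hh
      rw [Prod.mk_eq_zero] at h1
      exact Lf_inj3 he h1.1 h1.2)
  -- continuity of the configuration
  have hconf : ContinuousAt (fun x : E => ((x, T x, R x) : E × E × E)) 0 := by
    exact continuousAt_id.prodMk (hT.prodMk hR)
  have hconf0 : (fun x : E => ((x, T x, R x) : E × E × E)) 0 = (0, e, -e) := by
    simp [hT0, hR0]
  have hconf' : Tendsto (fun x : E => ((x, T x, R x) : E × E × E)) (𝓝 0) (𝓝 (0, e, -e)) := by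
    have := hconf.tendsto
    simp only [hT0, hR0] at this
    exact this
  have E1 : ∀ᶠ x in 𝓝 (0 : E), ((x, T x, R x) : E × E × E) ∈
      Metric.ball ((0, e, -e) : E × E × E) (min (min r1 r2) (min r3 (min δ₁ (1 / 100)))) :=
    hconf'.eventually (Metric.ball_mem_nhds _ (by positivity))
  have E2 : ∀ᶠ x in 𝓝 (0 : E), |gE e x (T x) (R x) - 1 / 4| < 1 / 20 := by
    have hg : ContinuousAt (fun p : E × E × E => gE e p.1 p.2.1 p.2.2)
        ((fun x : E => ((x, T x, R x) : E × E × E)) 0) := by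
      rw [hconf0]; exact continuousAt_gE he
    have hc := ContinuousAt.comp (f := fun x : E => ((x, T x, R x) : E × E × E)) hg hconf
    have h0 : ((fun p : E × E × E => gE e p.1 p.2.1 p.2.2) ∘
        fun x : E => ((x, T x, R x) : E × E × E)) 0 = 1 / 4 := by
      simp only [Function.comp, hT0, hR0, gE_centre he]
    have := hc.tendsto
    rw [h0] at this
    have h5 := this.eventually (Metric.ball_mem_nhds (1 / 4 : ℝ) (show (0 : ℝ) < 1 / 20 by norm_num))
    simpa [Real.dist_eq] using h5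
  have E3 : ∀ᶠ x in 𝓝 (0 : E), |wC e (R x) - 1 / 4| < 1 / 20 := by
    have hc : ContinuousAt (fun x => wC e (R x)) 0 := by
      unfold wC; fun_prop
    have := hc.tendsto
    simp only [hR0, wC_centre he] at this
    have h5 := this.eventually (Metric.ball_mem_nhds (1 / 4 : ℝ) (show (0 : ℝ) < 1 / 20 by norm_num))
    simpa [Real.dist_eq] using h5
  obtain ⟨δ₂, hδ₂, hall⟩ := Metric.eventually_nhds_iff_ball.1 (((hG.and E1).and E2).and E3)
  set δ := min (δ₂ / 2) (1 / 100) with hδ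
  have hδpos : 0 < δ := by positivity
  have hsub : ∀ x ∈ Metric.closedBall (0 : E) δ, x ∈ Metric.ball (0 : E) δ₂ := by
    intro x hx
    rw [Metric.mem_closedBall] at hx
    rw [Metric.mem_ball]
    have : δ ≤ δ₂ / 2 := min_le_left _ _
    linarith
  have hb : ∀ x ∈ Metric.closedBall (0 : E) δ, ∀ r, min (min r1 r2) (min r3 (min δ₁ (1 / 100))) ≤ r →
      ((x, T x, R x) : E × E × E) ∈ Metric.ball ((0, e, -e) : E × E × E) r := by
    intro x hx r hr
    exact Metric.ball_subset_ball hr (hall x (hsub x hx)).1.1.2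
  have hcomp : ∀ x ∈ Metric.closedBall (0 : E) δ, ∀ r, min (min r1 r2) (min r3 (min δ₁ (1 / 100))) ≤ r →
      x ∈ Metric.ball (0 : E) r ∧ T x ∈ Metric.ball e r ∧ R x ∈ Metric.ball (-e) r := by
    intro x hx r hr
    have := hb x hx r hr
    rw [← ball_prod_same, ← ball_prod_same] at this
    exact ⟨this.1, this.2.1, this.2.2⟩
  have m1 : min (min r1 r2) (min r3 (min δ₁ (1 / 100))) ≤ r1 :=
    (min_le_left _ _).trans (min_le_left _ _)
  have m2 : min (min r1 r2) (min r3 (min δ₁ (1 / 100))) ≤ r2 :=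
    (min_le_left _ _).trans (min_le_right _ _)
  have m3 : min (min r1 r2) (min r3 (min δ₁ (1 / 100))) ≤ r3 :=
    (min_le_right _ _).trans (min_le_left _ _)
  have m4 : min (min r1 r2) (min r3 (min δ₁ (1 / 100))) ≤ δ₁ :=
    (min_le_right _ _).trans ((min_le_right _ _).trans (min_le_left _ _))
  have m5 : min (min r1 r2) (min r3 (min δ₁ (1 / 100))) ≤ 1 / 100 :=
    (min_le_right _ _).trans ((min_le_right _ _).trans (min_le_right _ _))
  refine ⟨T, R, δ, max M1 (max M2 M3), hδpos, min_le_right _ _, by positivity, ?_, ?_, ?_, ?_⟩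
  · intro x hx
    have := hcomp x hx _ m5
    exact ⟨Metric.ball_subset_closedBall this.2.1, Metric.ball_subset_closedBall this.2.2⟩
  · intro x hx x' hx'
    have g0 : Gf e (x, T x, R x) = 0 := (hall x (hsub x hx)).1.1.1
    have g0' : Gf e (x', T x', R x') = 0 := (hall x' (hsub x' hx')).1.1.1
    have a1 := hA1 _ (hb x hx _ m1) _ (hb x' hx' _ m1)
    have a2 := hA2 _ (hb x hx _ m2) _ (hb x' hx' _ m2)
    have a3 := hA3 _ (hb x hx _ m3) _ (hb x' hx' _ m3)
    have n1 : ‖x - x'‖ ≤ ‖((x, T x, R x) : E × E × E) - (x', T x', R x')‖ := norm_fst_le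
      (((x, T x, R x) : E × E × E) - (x', T x', R x'))
    have n2 : ‖T x - T x'‖ ≤ ‖((x, T x, R x) : E × E × E) - (x', T x', R x')‖ :=
      (norm_fst_le (((x, T x, R x) : E × E × E) - (x', T x', R x')).2).trans (norm_snd_le _)
    have n3 : ‖R x - R x'‖ ≤ ‖((x, T x, R x) : E × E × E) - (x', T x', R x')‖ :=
      (norm_snd_le (((x, T x, R x) : E × E × E) - (x', T x', R x')).2).trans (norm_snd_le _)
    simp only [g0, g0', Prod.mk_sub_mk, sub_self, Prod.norm_mk, norm_zero] at a1 a2 a3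
    have b1 : max (0 : ℝ) ‖P1 (x, T x, R x) - P1 (x', T x', R x')‖ = ‖x - x'‖ := by
      rw [max_eq_right (norm_nonneg _)]; rfl
    have b2 : max (0 : ℝ) ‖P2 (x, T x, R x) - P2 (x', T x', R x')‖ = ‖T x - T x'‖ := by
      rw [max_eq_right (norm_nonneg _)]; rfl
    have b3 : max (0 : ℝ) ‖P3 (x, T x, R x) - P3 (x', T x', R x')‖ = ‖R x - R x'‖ := by
      rw [max_eq_right (norm_nonneg _)]; rfl
    simp only [Prod.norm_def, Prod.fst_sub, Prod.snd_sub] at n1 n2 n3
    rw [b1] at a1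
    rw [b2] at a2
    rw [b3] at a3
    have w1 : M1 ≤ max M1 (max M2 M3) := le_max_left _ _
    have w2 : M2 ≤ max M1 (max M2 M3) := (le_max_left _ _).trans (le_max_right _ _)
    have w3 : M3 ≤ max M1 (max M2 M3) := (le_max_right _ _).trans (le_max_right _ _)
    have q1 := norm_nonneg (x - x')
    have q2 := norm_nonneg (T x - T x')
    have q3 := norm_nonneg (R x - R x')
    refine ⟨?_, ?_, ?_, ?_⟩
    · exact (n1.trans a2).trans (by gcongr)
    · exact (n1.trans a3).trans (by gcongr)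
    · exact (n2.trans a1).trans (by gcongr)
    · exact (n3.trans a1).trans (by gcongr)
  · intro x hx
    exact ⟨((hall x (hsub x hx)).1.2).le, ((hall x (hsub x hx)).2).le⟩
  · intro x₀ hx₀ x hx x₁ hx₁ hne
    have g0 : Gf e (x₀, T x₀, R x₀) = 0 := (hall x₀ (hsub x₀ hx₀)).1.1.1
    exact hmin x₀ (hcomp x₀ hx₀ _ m4).1 (T x₀) (hcomp x₀ hx₀ _ m4).2.1 (R x₀)
      (hcomp x₀ hx₀ _ m4).2.2 g0 x (hcomp x hx _ m4).1 (R x₁) (hcomp x₁ hx₁ _ m4).2.2 hne

end Vale.Agent.P121
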